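import Mathlib

namespace Vale.Agent.Lib.P069

variable {X : Type*} [NormedAddCommGroup X] [NormedSpace ℝ X]

/-- `cof(X)`: the closed linear subspaces of finite codimension. -/
def IsCof (F : Submodule ℝ X) : Prop :=
  IsClosed (F : Set X) ∧ FiniteDimensional ℝ (X ⧸ F)

/-- `N` is an equivalent norm on the normed space `X`. -/
def IsEquivNorm (N : Seminorm ℝ X) : Prop :=
  ∃ c C : ℝ, 0 < c ∧ 0 < C ∧ ∀ x : X, c * ‖x‖ ≤ N x ∧ N x ≤ C * ‖x‖

/-- `N` is asymptotically uniformly convex: for every `t > 0` there is `δ > 0` such that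
every `x` with `N x = 1` admits `F ∈ cof(X)` with `N (x + t y) ≥ 1 + δ` for all `y ∈ F`,
`N y = 1`.  (Equivalent to positivity of the modulus of asymptotic uniform convexity.) -/
def IsAUC (N : Seminorm ℝ X) : Prop :=
  ∀ t : ℝ, 0 < t → ∃ δ : ℝ, 0 < δ ∧ ∀ x : X, N x = 1 →
    ∃ F : Submodule ℝ X, IsCof F ∧ ∀ y ∈ F, N y = 1 → 1 + δ ≤ N (x + t • y)

/-- `N` is asymptotically midpoint uniformly convex: for every `t > 0` there is `δ > 0` such
that every `x` with `N x = 1` admits `F ∈ cof(X)` with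
`max (N (x + t y)) (N (x - t y)) ≥ 1 + δ` for all `y ∈ F`, `N y = 1`. -/
def IsAMUC (N : Seminorm ℝ X) : Prop :=
  ∀ t : ℝ, 0 < t → ∃ δ : ℝ, 0 < δ ∧ ∀ x : X, N x = 1 →
    ∃ F : Submodule ℝ X, IsCof F ∧ ∀ y ∈ F, N y = 1 →
      1 + δ ≤ max (N (x + t • y)) (N (x - t • y))

/-- The whole space is in `cof`. -/
theorem isCof_top : IsCof (⊤ : Submodule ℝ X) := by
  refine ⟨by simp, ?_⟩
  have : Subsingleton (X ⧸ (⊤ : Submodule ℝ X)) := Submodule.Quotient.subsingleton_iff.mpr rfl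
  infer_instance

/-- Kernel of a linear map into a finite-dimensional space has finite-dimensional quotient. -/
theorem finiteDimensional_quotient_ker {Y : Type*} [AddCommGroup Y] [Module ℝ Y]
    [FiniteDimensional ℝ Y] (f : X →ₗ[ℝ] Y) : FiniteDimensional ℝ (X ⧸ LinearMap.ker f) :=
  LinearEquiv.finiteDimensional (LinearMap.quotKerEquivRange f).symm

/-- Preimage of a `cof` subspace under a continuous linear map is `cof`. -/
theorem IsCof.comap {Y : Type*} [NormedAddCommGroup Y] [NormedSpace ℝ Y]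
    {F : Submodule ℝ Y} (hF : IsCof F) (f : X →L[ℝ] Y) :
    IsCof (F.comap (f : X →ₗ[ℝ] Y)) := by
  obtain ⟨hcl, hfd⟩ := hF
  refine ⟨?_, ?_⟩
  · have : ((F.comap (f : X →ₗ[ℝ] Y) : Submodule ℝ X) : Set X) = f ⁻¹' (F : Set Y) := rfl
    rw [this]
    exact hcl.preimage f.continuous
  · have hker : LinearMap.ker (F.mkQ.comp (f : X →ₗ[ℝ] Y)) = F.comap (f : X →ₗ[ℝ] Y) := by
      rw [LinearMap.ker_comp, Submodule.ker_mkQ]
    rw [← hker]
    exact finiteDimensional_quotient_ker _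

/-- Intersection of two `cof` subspaces is `cof`. -/
theorem IsCof.inf {F₁ F₂ : Submodule ℝ X} (h₁ : IsCof F₁) (h₂ : IsCof F₂) :
    IsCof (F₁ ⊓ F₂) := by
  obtain ⟨hcl₁, hfd₁⟩ := h₁
  obtain ⟨hcl₂, hfd₂⟩ := h₂
  refine ⟨?_, ?_⟩
  · have : ((F₁ ⊓ F₂ : Submodule ℝ X) : Set X) = (F₁ : Set X) ∩ (F₂ : Set X) := rfl
    rw [this]
    exact hcl₁.inter hcl₂
  · have hker : LinearMap.ker (F₁.mkQ.prod F₂.mkQ) = F₁ ⊓ F₂ := by
      rw [LinearMap.ker_prod, Submodule.ker_mkQ, Submodule.ker_mkQ]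
    rw [← hker]
    exact finiteDimensional_quotient_ker _

/-- Monotonicity in the scale: if the midpoint estimate holds at scale `s₀` it holds at every
larger scale `s`. -/
theorem max_mono_scale (N : Seminorm ℝ X) {x y : X} (hx : N x = 1) {s₀ s δ : ℝ}
    (hs₀ : 0 < s₀) (hs : s₀ ≤ s) (hδ : 0 ≤ δ)
    (h : 1 + δ ≤ max (N (x + s₀ • y)) (N (x - s₀ • y))) :
    1 + δ ≤ max (N (x + s • y)) (N (x - s • y)) := by
  have hspos : 0 < s := lt_of_lt_of_le hs₀ hs
  set lam : ℝ := s₀ / s with hlam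
  have hlam0 : 0 < lam := div_pos hs₀ hspos
  have hlam1 : lam ≤ 1 := (div_le_one hspos).mpr hs
  have hls : lam * s = s₀ := by rw [hlam]; field_simp
  -- convexity estimate for a generic direction `z` (to be `y` or `-y`)
  have key : ∀ z : X, 1 + δ ≤ N (x + s₀ • z) → 1 + δ ≤ N (x + s • z) := by
    intro z hz
    have e : x + s₀ • z = (1 - lam) • x + lam • (x + s • z) := by
      rw [smul_add, smul_smul, hls, sub_smul, one_smul]; abel
    have h1 : N (x + s₀ • z) ≤ (1 - lam) * N x + lam * N (x + s • z) := by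
      rw [e]
      refine (map_add_le_add N _ _).trans ?_
      rw [map_smul_eq_mul, map_smul_eq_mul, Real.norm_of_nonneg (by linarith),
        Real.norm_of_nonneg hlam0.le]
    rw [hx] at h1
    have h2 : lam * (1 + δ) ≤ lam * N (x + s • z) := by nlinarith
    exact le_of_mul_le_mul_left h2 hlam0
  rcases le_max_iff.mp h with h' | h'
  · exact le_max_of_le_left (key y h')
  · refine le_max_of_le_right ?_
    have := key (-y) (by simpa [sub_eq_add_neg] using h')
    simpa [sub_eq_add_neg] using this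

end Vale.Agent.Lib.P069
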