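import Vale.Agent.Lib.P069.JTCoord

namespace Vale.Agent.Lib.P069

open Finset

namespace JT

/-- Value at a node of a finite combination of unit vectors. -/
theorem sum_smul_single_apply (B : Finset Node) (a : Node → ℝ) (t : Node) :
    (∑ i ∈ B, a i • single i) t = if t ∈ B then a t else 0 := by
  rw [sum_apply]
  have h1 : ∀ i ∈ B, (a i • single i) t = if i = t then a i else 0 := by
    intro i _
    rw [smul_apply, single_apply]
    split_ifs <;> simp
  rw [Finset.sum_congr rfl h1, Finset.sum_ite_eq' B t a]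

/-- Square-summability of the coefficients of a functional inside a block. -/
theorem sum_sq_apply_single_le (f : JT →L[ℝ] ℝ) (m : ℕ) (B : Finset Node)
    (hB : ∀ t ∈ B, t.headD 0 < m) :
    ∑ t ∈ B, f (single t) ^ 2 ≤ m * ‖f‖ ^ 2 := by
  set a : Node → ℝ := fun t => f (single t) with ha
  set z : JT := ∑ t ∈ B, a t • single t with hz
  set Sm : ℝ := ∑ t ∈ B, a t ^ 2 with hSm
  have hSm0 : 0 ≤ Sm := Finset.sum_nonneg fun t _ => sq_nonneg _
  have hzt : ∀ t, z t = if t ∈ B then a t else 0 := fun t => sum_smul_single_apply B a t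
  have hfz : f z = Sm := by
    rw [hz, map_sum]
    apply Finset.sum_congr rfl
    intro t _
    rw [map_smul, smul_eq_mul]
    ring
  have hsupp : z.supp ⊆ B := by
    intro t ht
    have h1 := mem_supp.mp ht
    rw [hzt] at h1
    by_contra h2
    rw [if_neg h2] at h1
    exact h1 rfl
  have hzx : ∀ t, z t ≠ 0 → t.headD 0 < m := by
    intro t ht
    exact hB t (hsupp (mem_supp.mpr ht))
  have h1 : ‖z‖ ^ 2 ≤ m * ∑ t ∈ z.supp, z t ^ 2 := norm_sq_le_mul_sum_sq m z hzx
  have h2 : ∑ t ∈ z.supp, z t ^ 2 ≤ Sm := by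
    have h3 : ∑ t ∈ z.supp, z t ^ 2 = ∑ t ∈ z.supp, a t ^ 2 := by
      apply Finset.sum_congr rfl
      intro t ht
      rw [hzt, if_pos (hsupp ht)]
    rw [h3]
    exact Finset.sum_le_sum_of_subset_of_nonneg hsupp fun t _ _ => sq_nonneg _
  have hm0 : (0 : ℝ) ≤ m := Nat.cast_nonneg m
  have h4 : ‖z‖ ^ 2 ≤ m * Sm := h1.trans (mul_le_mul_of_nonneg_left h2 hm0)
  have h5 : Sm ≤ ‖f‖ * ‖z‖ := by
    rw [← hfz]
    exact (le_abs_self _).trans (f.le_opNorm z)
  have h6 : Sm ^ 2 ≤ ‖f‖ ^ 2 * (m * Sm) := by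
    calc Sm ^ 2 ≤ (‖f‖ * ‖z‖) ^ 2 := by gcongr
      _ = ‖f‖ ^ 2 * ‖z‖ ^ 2 := by ring
      _ ≤ ‖f‖ ^ 2 * (m * Sm) := by gcongr
  rcases hSm0.eq_or_lt with h0 | hpos
  · rw [← h0]
    positivity
  · have h7 : Sm * Sm ≤ (m * ‖f‖ ^ 2) * Sm := by
      calc Sm * Sm = Sm ^ 2 := by ring
        _ ≤ ‖f‖ ^ 2 * (m * Sm) := h6
        _ = (m * ‖f‖ ^ 2) * Sm := by ring
    exact le_of_mul_le_mul_right h7 hpos

/-- Inside a block, a functional is a norm limit of its finite coordinate expansions. -/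
theorem exists_finite_approx_block (f : JT →L[ℝ] ℝ) (m : ℕ) {η : ℝ} (hη : 0 < η) :
    ∃ B₀ : Finset Node, (∀ t ∈ B₀, t.headD 0 < m) ∧
      ∀ B : Finset Node, B₀ ⊆ B → (∀ t ∈ B, t.headD 0 < m) →
        ‖f.comp (blockProj m) - ∑ t ∈ B, f (single t) • coord t‖ ≤ η := by
  classical
  set a : Node → ℝ := fun t => f (single t) with ha
  set V : Set ℝ := {v | ∃ B : Finset Node, (∀ t ∈ B, t.headD 0 < m) ∧ v = ∑ t ∈ B, a t ^ 2}
    with hV
  have hVne : V.Nonempty := ⟨0, ∅, by simp, by simp⟩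
  have hVbdd : BddAbove V := by
    refine ⟨m * ‖f‖ ^ 2, ?_⟩
    rintro v ⟨B, hB, rfl⟩
    exact sum_sq_apply_single_le f m B hB
  have hη2 : 0 < η ^ 2 := by positivity
  obtain ⟨v, ⟨B₀, hB₀, rfl⟩, hv⟩ := exists_lt_of_lt_csSup hVne (sub_lt_self (sSup V) hη2)
  refine ⟨B₀, hB₀, ?_⟩
  intro B hB₀B hB
  -- tail estimate
  have htail : ∀ B' : Finset Node, (∀ t ∈ B', t.headD 0 < m) → Disjoint B₀ B' →
      ∑ t ∈ B', a t ^ 2 ≤ η ^ 2 := by
    intro B' hB' hdisj
    have h1 : ∑ t ∈ B₀ ∪ B', a t ^ 2 ≤ sSup V := by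
      apply le_csSup hVbdd
      refine ⟨B₀ ∪ B', ?_, rfl⟩
      intro t ht
      rcases Finset.mem_union.mp ht with h | h
      · exact hB₀ t h
      · exact hB' t h
    rw [Finset.sum_union hdisj] at h1
    linarith
  refine ContinuousLinearMap.opNorm_le_bound _ hη.le ?_
  intro x
  set B' : Finset Node := x.supp.filter (fun t => t.headD 0 < m ∧ t ∉ B) with hB'def
  have hB'head : ∀ t ∈ B', t.headD 0 < m := fun t ht => (Finset.mem_filter.mp ht).2.1
  have hB'disj : Disjoint B₀ B' := by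
    rw [Finset.disjoint_left]
    intro t ht ht'
    exact (Finset.mem_filter.mp ht').2.2 (hB₀B ht)
  have hval : (f.comp (blockProj m) - ∑ t ∈ B, f (single t) • coord t) x =
      ∑ t ∈ B', x t * a t := by
    rw [_root_.sub_apply, ContinuousLinearMap.comp_apply,
      _root_.sum_apply]
    have e1 : f (blockProj m x) = ∑ t ∈ x.supp.filter (fun t => t.headD 0 < m), x t * a t := by
      rw [apply_eq_sum f (blockProj m x)]
      have hs : (blockProj m x).supp = x.supp.filter (fun t => t.headD 0 < m) := by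
        ext t
        rw [mem_supp, Finset.mem_filter, mem_supp, blockProj_apply]
        constructor
        · intro h
          by_cases hh : t.headD 0 < m
          · rw [if_pos hh] at h
            exact ⟨h, hh⟩
          · rw [if_neg hh] at h
            exact absurd rfl h
        · rintro ⟨h, hh⟩
          rw [if_pos hh]
          exact h
      rw [hs]
      apply Finset.sum_congr rfl
      intro t ht
      rw [blockProj_apply, if_pos (Finset.mem_filter.mp ht).2]
    have e2 : ∑ t ∈ B, (f (single t) • coord t) x =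
        ∑ t ∈ x.supp.filter (fun t => t.headD 0 < m ∧ t ∈ B), x t * a t := by
      have h1 : ∀ t ∈ B, (f (single t) • coord t) x = x t * a t := by
        intro t _
        rw [_root_.smul_apply, coord_apply, smul_eq_mul]
        ring
      rw [Finset.sum_congr rfl h1]
      have h2 : x.supp.filter (fun t => t.headD 0 < m ∧ t ∈ B) ⊆ B :=
        fun t ht => (Finset.mem_filter.mp ht).2.2
      symm
      apply Finset.sum_subset h2
      intro t htB htn
      have hx : x t = 0 := by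
        by_contra hne
        exact htn (Finset.mem_filter.mpr ⟨mem_supp.mpr hne, hB t htB, htB⟩)
      rw [hx, zero_mul]
    rw [e1, e2]
    have e3 : x.supp.filter (fun t => t.headD 0 < m) =
        x.supp.filter (fun t => t.headD 0 < m ∧ t ∈ B) ∪ B' := by
      ext t
      simp only [Finset.mem_filter, Finset.mem_union, hB'def]
      tauto
    have hd : Disjoint (x.supp.filter (fun t => t.headD 0 < m ∧ t ∈ B)) B' := by
      rw [Finset.disjoint_left]
      intro t ht ht'
      exact (Finset.mem_filter.mp ht').2.2 (Finset.mem_filter.mp ht).2.2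
    rw [e3, Finset.sum_union hd]
    ring
  rw [hval]
  have hcs : |∑ t ∈ B', x t * a t| ≤
      Real.sqrt (∑ t ∈ B', x t ^ 2) * Real.sqrt (∑ t ∈ B', a t ^ 2) := by
    rw [abs_le]
    constructor
    · have h1 := Real.sum_mul_le_sqrt_mul_sqrt B' (fun t => -x t) a
      have h2 : ∑ t ∈ B', (-x t) * a t = -∑ t ∈ B', x t * a t := by
        rw [← Finset.sum_neg_distrib]
        apply Finset.sum_congr rfl
        intro t _
        ring
      have h3 : ∑ t ∈ B', (-x t) ^ 2 = ∑ t ∈ B', x t ^ 2 := by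
        apply Finset.sum_congr rfl
        intro t _
        ring
      rw [h2, h3] at h1
      linarith
    · exact Real.sum_mul_le_sqrt_mul_sqrt B' x a
  have h1 : Real.sqrt (∑ t ∈ B', x t ^ 2) ≤ ‖x‖ := by
    rw [Real.sqrt_le_left (norm_nonneg x)]
    exact sum_sq_le_norm_sq B' x
  have h2 : Real.sqrt (∑ t ∈ B', a t ^ 2) ≤ η := by
    rw [Real.sqrt_le_left hη.le]
    exact htail B' hB'head hB'disj
  rw [Real.norm_eq_abs]
  calc |∑ t ∈ B', x t * a t| ≤
        Real.sqrt (∑ t ∈ B', x t ^ 2) * Real.sqrt (∑ t ∈ B', a t ^ 2) := hcs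
    _ ≤ ‖x‖ * η := mul_le_mul h1 h2 (Real.sqrt_nonneg _) (norm_nonneg x)
    _ = η * ‖x‖ := mul_comm _ _

/-- Every functional is within `η` of a finite coordinate expansion over a finite set of
nodes closed under initial parts. -/
theorem exists_finite_approx (f : JT →L[ℝ] ℝ) {η : ℝ} (hη : 0 < η) :
    ∃ A : Finset Node, (∀ t ∈ A, ∀ r, r <+: t → r ∈ A) ∧
      ‖f - ∑ a ∈ A, f (single a) • coord a‖ ≤ η := by
  classical
  have hη2 : 0 < η / 2 := by positivity
  have hconv := tendsto_dualMap (P := blockProj) isL2Proj_blockProj tendsto_blockProj f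
  have hev : ∀ᶠ m in Filter.atTop, dist (dualMap (blockProj m) f) f < η / 2 :=
    (Metric.tendsto_nhds.mp hconv) (η / 2) hη2
  obtain ⟨m, hm1, hm⟩ := (hev.and (Filter.eventually_ge_atTop 1)).exists.imp fun m h => h.symm
  rw [dualMap_apply, dist_eq_norm] at hm
  obtain ⟨B₀, hB₀, hB₀approx⟩ := exists_finite_approx_block f m hη2
  set A : Finset Node := B₀.biUnion (fun t => t.inits.toFinset) with hA
  have hmemA : ∀ r, r ∈ A ↔ ∃ t ∈ B₀, r <+: t := by
    intro r
    rw [hA, Finset.mem_biUnion]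
    constructor
    · rintro ⟨t, ht, hr⟩
      exact ⟨t, ht, (List.mem_inits r t).mp (List.mem_toFinset.mp hr)⟩
    · rintro ⟨t, ht, hr⟩
      exact ⟨t, ht, List.mem_toFinset.mpr ((List.mem_inits r t).mpr hr)⟩
  have hclosed : ∀ t ∈ A, ∀ r, r <+: t → r ∈ A := by
    intro t ht r hr
    obtain ⟨t', ht', htt'⟩ := (hmemA t).mp ht
    exact (hmemA r).mpr ⟨t', ht', hr.trans htt'⟩
  have hB₀A : B₀ ⊆ A := fun t ht => (hmemA t).mpr ⟨t, ht, List.prefix_refl t⟩
  have hAhead : ∀ t ∈ A, t.headD 0 < m := by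
    intro r hr
    obtain ⟨t, ht, hrt⟩ := (hmemA r).mp hr
    have h1 := hB₀ t ht
    cases r with
    | nil => exact hm1
    | cons b r' =>
      obtain ⟨q, rfl⟩ := hrt
      simpa using h1
  refine ⟨A, hclosed, ?_⟩
  have h1 := hB₀approx A hB₀A hAhead
  have h2 : f - ∑ a ∈ A, f (single a) • coord a =
      (f - f.comp (blockProj m)) + (f.comp (blockProj m) - ∑ a ∈ A, f (single a) • coord a) := by
    abel
  rw [h2]
  have h3 : ‖f - f.comp (blockProj m)‖ < η / 2 := by
    rw [← norm_neg, neg_sub]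
    exact hm
  calc ‖(f - f.comp (blockProj m)) + (f.comp (blockProj m) - ∑ a ∈ A, f (single a) • coord a)‖
      ≤ ‖f - f.comp (blockProj m)‖ + ‖f.comp (blockProj m) - ∑ a ∈ A, f (single a) • coord a‖ :=
        norm_add_le _ _
    _ ≤ η / 2 + η / 2 := add_le_add h3.le h1
    _ = η := by ring

end JT

end Vale.Agent.Lib.P069
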