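import Vale.Agent.Lib.P069.JTDefs

namespace Vale.Agent.Lib.P069

open Finset

/-- Restriction of a function to a predicate. -/
def restrictFn (p : Node → Prop) [DecidablePred p] (x : Node → ℝ) : Node → ℝ :=
  fun t => if p t then x t else 0

theorem segSum_restrictFn (p : Node → Prop) [DecidablePred p] (x : Node → ℝ) (S : Finset Node) :
    segSum (restrictFn p x) S = segSum x (S.filter p) := by
  unfold segSum restrictFn
  rw [Finset.sum_filter]

theorem val_restrictFn (p : Node → Prop) [DecidablePred p] (x : Node → ℝ)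
    (l : List (Finset Node)) :
    val l (restrictFn p x) = val (l.map fun S => S.filter p) x := by
  unfold val
  rw [List.map_map]
  refine congrArg List.sum (List.map_congr_left fun S _ => ?_)
  simp [segSum_restrictFn]

theorem isSeg_empty : IsSeg ∅ := by
  refine ⟨?_, ?_, ?_⟩ <;> simp

/-- Filtering a segment by a predicate that is convex along the segment gives a segment. -/
theorem IsSeg.filter_of_convex {S : Finset Node} (hS : IsSeg S) (p : Node → Prop)
    [DecidablePred p]
    (hp : ∀ s ∈ S, ∀ t ∈ S, ∀ r ∈ S, p s → p t → s <+: r → r <+: t → p r) :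
    IsSeg (S.filter p) := by
  obtain ⟨h1, h2, h3⟩ := hS
  refine ⟨?_, ?_, ?_⟩
  · intro s hs t ht
    exact h1 s (Finset.mem_filter.mp hs).1 t (Finset.mem_filter.mp ht).1
  · intro s hs t ht r hsr hrt
    have hs' := Finset.mem_filter.mp hs
    have ht' := Finset.mem_filter.mp ht
    have hr : r ∈ S := h2 s hs'.1 t ht'.1 r hsr hrt
    exact Finset.mem_filter.mpr ⟨hr, hp s hs'.1 t ht'.1 r hr hs'.2 ht'.2 hsr hrt⟩
  · intro t ht
    exact (Finset.card_filter_le S p).trans (h3 t (Finset.mem_filter.mp ht).1)

theorem IsSeg.filter_up {S : Finset Node} (hS : IsSeg S) (p : Node → Prop) [DecidablePred p]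
    (hp : ∀ s r, p s → s <+: r → p r) : IsSeg (S.filter p) :=
  hS.filter_of_convex p fun s _ _ _ r _ hps _ hsr _ => hp s r hps hsr

theorem IsSeg.filter_down {S : Finset Node} (hS : IsSeg S) (p : Node → Prop) [DecidablePred p]
    (hp : ∀ r t, p t → r <+: t → p r) : IsSeg (S.filter p) :=
  hS.filter_of_convex p fun _ _ t _ r _ _ hpt _ hrt => hp r t hpt hrt

theorem IsSeg.filter_not_of_up {S : Finset Node} (hS : IsSeg S) (p : Node → Prop)
    [DecidablePred p] (hp : ∀ s r, p s → s <+: r → p r) : IsSeg (S.filter fun t => ¬ p t) :=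
  hS.filter_down _ fun r t hpt hrt hpr => hpt (hp r t hpr hrt)

theorem IsSeg.filter_not_of_down {S : Finset Node} (hS : IsSeg S) (p : Node → Prop)
    [DecidablePred p] (hp : ∀ r t, p t → r <+: t → p r) : IsSeg (S.filter fun t => ¬ p t) :=
  hS.filter_up _ fun s r hps hsr hpr => hps (hp s r hpr hsr)

/-- All nodes of a segment have the same head. -/
theorem IsSeg.headD_eq {S : Finset Node} (hS : IsSeg S) {s t : Node} (hs : s ∈ S) (ht : t ∈ S) :
    s.headD 0 = t.headD 0 := by
  obtain ⟨h1, -, h3⟩ := hS
  have key : ∀ s t : Node, s ∈ S → t ∈ S → s <+: t → s.headD 0 = t.headD 0 := by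
    intro s t hs ht hst
    by_cases hst' : s = t
    · rw [hst']
    · cases s with
      | nil =>
        have hc : 2 ≤ S.card := by
          have : ({[], t} : Finset Node) ⊆ S := by
            intro r hr
            rcases Finset.mem_insert.mp hr with h | h
            · rw [h]; exact hs
            · rw [Finset.mem_singleton.mp h]; exact ht
          have h2 : ({[], t} : Finset Node).card = 2 := Finset.card_pair hst'
          exact h2 ▸ Finset.card_le_card this
        have := h3 [] hs
        simp at this
        omega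
      | cons a s' =>
        obtain ⟨r, rfl⟩ := hst
        simp
  rcases h1 s hs t ht with h | h
  · exact key s t hs ht h
  · exact (key t s ht hs h).symm

/-- A predicate depending only on the head keeps a segment whole or empties it. -/
theorem IsSeg.filter_head {S : Finset Node} (hS : IsSeg S) (p : Node → Prop) [DecidablePred p]
    (hp : ∀ s t : Node, s.headD 0 = t.headD 0 → (p s ↔ p t)) :
    S.filter p = S ∨ S.filter p = ∅ := by
  by_cases h : ∃ s ∈ S, p s
  · obtain ⟨s, hs, hps⟩ := h
    left
    refine Finset.filter_true_of_mem fun t ht => ?_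
    exact (hp s t (hS.headD_eq hs ht)).mp hps
  · right
    refine Finset.filter_false_of_mem fun t ht hpt => h ⟨t, ht, hpt⟩

theorem IsSeg.filter_head_isSeg {S : Finset Node} (hS : IsSeg S) (p : Node → Prop)
    [DecidablePred p] (hp : ∀ s t : Node, s.headD 0 = t.headD 0 → (p s ↔ p t)) :
    IsSeg (S.filter p) := by
  rcases hS.filter_head p hp with h | h
  · rw [h]; exact hS
  · rw [h]; exact isSeg_empty

theorem IsFam.map_filter {l : List (Finset Node)} (hl : IsFam l) (p : Node → Prop)
    [DecidablePred p] (hseg : ∀ S ∈ l, IsSeg (S.filter p)) :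
    IsFam (l.map fun S => S.filter p) := by
  refine ⟨?_, ?_⟩
  · intro S' hS'
    obtain ⟨S, hS, rfl⟩ := List.mem_map.mp hS'
    exact hseg S hS
  · refine List.Pairwise.map _ (fun a b hab => ?_) hl.2
    exact Finset.disjoint_of_subset_left (Finset.filter_subset _ _)
      (Finset.disjoint_of_subset_right (Finset.filter_subset _ _) hab)

theorem val_append (l₁ l₂ : List (Finset Node)) (x : Node → ℝ) :
    val (l₁ ++ l₂) x = val l₁ x + val l₂ x := by
  simp [val]

namespace JT

/-- Restriction of an element to a predicate. -/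
noncomputable def restrict (p : Node → Prop) [DecidablePred p] (x : JT) : JT :=
  Finsupp.filter p (show Node →₀ ℝ from x)

@[simp] theorem restrict_apply (p : Node → Prop) [DecidablePred p] (x : JT) (t : Node) :
    restrict p x t = if p t then x t else 0 :=
  Finsupp.filter_apply p _ t

theorem coe_restrict (p : Node → Prop) [DecidablePred p] (x : JT) :
    ⇑(restrict p x) = restrictFn p ⇑x := by
  funext t; simp [restrictFn]

theorem restrict_add_restrict_not (p : Node → Prop) [DecidablePred p] (x : JT) :
    restrict p x + restrict (fun t => ¬ p t) x = x := by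
  ext t
  by_cases h : p t <;> simp [h]

theorem norm_restrict_le (p : Node → Prop) [DecidablePred p]
    (h : ∀ S, IsSeg S → IsSeg (S.filter p)) (x : JT) : ‖restrict p x‖ ≤ ‖x‖ := by
  refine norm_le_of_forall fun l hl => ?_
  rw [coe_restrict, val_restrictFn]
  exact sqrt_val_le_norm (hl.map_filter p fun S hS => h S (hl.1 S hS)) x

/-- Superadditivity of the squared norm along a splitting that respects segments. -/
theorem norm_sq_restrict_add_le (p : Node → Prop) [DecidablePred p]
    (h : ∀ S, IsSeg S → IsSeg (S.filter p))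
    (h' : ∀ S, IsSeg S → IsSeg (S.filter fun t => ¬ p t)) (x : JT) :
    ‖restrict p x‖ ^ 2 + ‖restrict (fun t => ¬ p t) x‖ ^ 2 ≤ ‖x‖ ^ 2 := by
  have key : ∀ l₁ l₂, IsFam l₁ → IsFam l₂ →
      val l₁ (restrict p x) + val l₂ (restrict (fun t => ¬ p t) x) ≤ ‖x‖ ^ 2 := by
    intro l₁ l₂ h₁ h₂
    rw [coe_restrict, coe_restrict, val_restrictFn, val_restrictFn, ← val_append]
    refine val_le_norm_sq ?_ x
    have f₁ := h₁.map_filter p fun S hS => h S (h₁.1 S hS)
    have f₂ := h₂.map_filter (fun t => ¬ p t) fun S hS => h' S (h₂.1 S hS)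
    refine ⟨?_, ?_⟩
    · intro S hS
      rcases List.mem_append.mp hS with hS | hS
      · exact f₁.1 S hS
      · exact f₂.1 S hS
    · refine List.pairwise_append.mpr ⟨f₁.2, f₂.2, ?_⟩
      intro a ha b hb
      obtain ⟨S₁, -, rfl⟩ := List.mem_map.mp ha
      obtain ⟨S₂, -, rfl⟩ := List.mem_map.mp hb
      rw [Finset.disjoint_left]
      intro t ht₁ ht₂
      exact (Finset.mem_filter.mp ht₂).2 (Finset.mem_filter.mp ht₁).2
  have h2 : ∀ l₂, IsFam l₂ →
      val l₂ (restrict (fun t => ¬ p t) x) ≤ ‖x‖ ^ 2 - ‖restrict p x‖ ^ 2 := by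
    intro l₂ h₂
    have : ‖restrict p x‖ ^ 2 ≤ ‖x‖ ^ 2 - val l₂ (restrict (fun t => ¬ p t) x) :=
      norm_sq_le_of_forall fun l₁ h₁ => by linarith [key l₁ l₂ h₁ h₂]
    linarith
  have := norm_sq_le_of_forall h2
  linarith

/-- Exact splitting of the squared norm along a predicate depending only on the head. -/
theorem norm_sq_block (p : Node → Prop) [DecidablePred p]
    (hp : ∀ s t : Node, s.headD 0 = t.headD 0 → (p s ↔ p t)) (x : JT) :
    ‖x‖ ^ 2 = ‖restrict p x‖ ^ 2 + ‖restrict (fun t => ¬ p t) x‖ ^ 2 := by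
  have hnp : ∀ s t : Node, s.headD 0 = t.headD 0 → (¬ p s ↔ ¬ p t) :=
    fun s t hst => not_congr (hp s t hst)
  refine le_antisymm ?_ (norm_sq_restrict_add_le p (fun S hS => hS.filter_head_isSeg p hp)
    (fun S hS => hS.filter_head_isSeg _ hnp) x)
  refine norm_sq_le_of_forall fun l hl => ?_
  have e : val l x = val l (restrict p x) + val l (restrict (fun t => ¬ p t) x) := by
    rw [coe_restrict, coe_restrict]
    obtain ⟨hseg, -⟩ := hl
    induction l with
    | nil => simp [val_nil]
    | cons S l ih =>
      rw [val_cons, val_cons, val_cons, ih fun S' hS' => hseg S' (List.mem_cons_of_mem _ hS')]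
      have hS := hseg S List.mem_cons_self
      have e1 : segSum x S = segSum (restrictFn p x) S + segSum (restrictFn (fun t => ¬ p t) x) S := by
        rw [segSum_restrictFn, segSum_restrictFn]
        unfold segSum
        rw [Finset.sum_filter_add_sum_filter_not]
      have e2 : segSum (restrictFn p x) S = 0 ∨ segSum (restrictFn (fun t => ¬ p t) x) S = 0 := by
        rw [segSum_restrictFn, segSum_restrictFn]
        rcases hS.filter_head p hp with h | h
        · right
          have : S.filter (fun t => ¬ p t) = ∅ := by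
            rw [Finset.filter_eq_empty_iff]
            intro t ht
            have h' : t ∈ S.filter p := by rw [h]; exact ht
            simpa using (Finset.mem_filter.mp h').2
          rw [this]; simp [segSum]
        · left; rw [h]; simp [segSum]
      rcases e2 with e2 | e2
      · rw [e1, e2]; ring
      · rw [e1, e2]; ring
  rw [e]
  exact add_le_add (val_le_norm_sq hl _) (val_le_norm_sq hl _)

/-- The `l2` mass on any finite set is dominated by the squared norm. -/
theorem sum_sq_le_norm_sq (B : Finset Node) (x : JT) : ∑ t ∈ B, x t ^ 2 ≤ ‖x‖ ^ 2 := by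
  have hfam : IsFam (B.toList.map fun t => ({t} : Finset Node)) := by
    refine ⟨?_, ?_⟩
    · intro S hS
      obtain ⟨t, -, rfl⟩ := List.mem_map.mp hS
      exact isSeg_singleton t
    · refine List.Pairwise.map _ (fun a b hab => ?_) (Finset.nodup_toList B)
      exact Finset.disjoint_singleton.mpr hab
  have h := val_le_norm_sq hfam x
  have e : val (B.toList.map fun t => ({t} : Finset Node)) x = ∑ t ∈ B, x t ^ 2 := by
    unfold val
    rw [List.map_map, ← Finset.sum_map_toList]
    refine congrArg List.sum (List.map_congr_left fun t _ => ?_)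
    simp [segSum]
  rw [e] at h
  exact h

/-- On nodes with head below `m` the norm is dominated by `sqrt m` times the `l2` norm. -/
theorem norm_sq_le_mul_sum_sq (m : ℕ) (x : JT) (hx : ∀ t, x t ≠ 0 → t.headD 0 < m) :
    ‖x‖ ^ 2 ≤ m * ∑ t ∈ x.supp, x t ^ 2 := by
  refine norm_sq_le_of_forall fun l hl => ?_
  have h1 : val l x ≤ (l.map fun S => (m : ℝ) * ∑ t ∈ S ∩ x.supp, x t ^ 2).sum := by
    unfold val
    refine List.sum_le_sum fun S hS => ?_
    have e : segSum x S = ∑ t ∈ S ∩ x.supp, x t := by
      unfold segSum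
      symm
      refine Finset.sum_subset Finset.inter_subset_left fun t ht hts => ?_
      by_contra h
      exact hts (Finset.mem_inter.mpr ⟨ht, mem_supp.mpr h⟩)
    rw [e]
    have h2 := sq_sum_le_card_mul_sum_sq (s := S ∩ x.supp) (f := fun t => x t)
    refine h2.trans ?_
    have h3 : 0 ≤ ∑ t ∈ S ∩ x.supp, x t ^ 2 := Finset.sum_nonneg fun t _ => sq_nonneg _
    by_cases hne : (S ∩ x.supp).Nonempty
    · obtain ⟨t, ht⟩ := hne
      have ht' := Finset.mem_inter.mp ht
      have hc : (S ∩ x.supp).card ≤ m := by
        have := (hl.1 S hS).2.2 t ht'.1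
        have := hx t (mem_supp.mp ht'.2)
        have := Finset.card_le_card (Finset.inter_subset_left : S ∩ x.supp ⊆ S)
        omega
      have : ((S ∩ x.supp).card : ℝ) ≤ m := by exact_mod_cast hc
      gcongr
    · rw [Finset.not_nonempty_iff_eq_empty.mp hne]
      simp
  have h4 : (l.map fun S => (m : ℝ) * ∑ t ∈ S ∩ x.supp, x t ^ 2).sum =
      m * (l.map fun S => ∑ t ∈ S ∩ x.supp, x t ^ 2).sum := by
    rw [List.sum_map_mul_left]
  have h5 := sum_inter_le (fun t => x t ^ 2) (fun t => sq_nonneg _) l hl.2 x.supp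
  rw [h4] at h1
  have hm : (0 : ℝ) ≤ m := Nat.cast_nonneg m
  calc val l x ≤ m * (l.map fun S => ∑ t ∈ S ∩ x.supp, x t ^ 2).sum := h1
    _ ≤ m * ∑ t ∈ x.supp, x t ^ 2 := by gcongr

end JT

end Vale.Agent.Lib.P069
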