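import Mathlib

namespace Vale.Agent.Lib.P069

variable {Y : Type*} [NormedAddCommGroup Y] [NormedSpace ℝ Y]

/-- precomposition with `P` on the dual -/
noncomputable def dualMap (P : Y →L[ℝ] Y) : (Y →L[ℝ] ℝ) →L[ℝ] (Y →L[ℝ] ℝ) :=
  (ContinuousLinearMap.compL ℝ Y Y ℝ).flip P

theorem dualMap_apply (P : Y →L[ℝ] Y) (g : Y →L[ℝ] ℝ) : dualMap P g = g.comp P := rfl

/-- idempotent with exact l2-splitting of the norm -/
def IsL2Proj (P : Y →L[ℝ] Y) : Prop :=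
  (∀ y, P (P y) = P y) ∧ ∀ y, ‖y‖ ^ 2 = ‖P y‖ ^ 2 + ‖y - P y‖ ^ 2

/-- A real functional nearly attains its norm on the unit ball (strict form). -/
theorem l2_exists_lt_apply (f : Y →L[ℝ] ℝ) {r : ℝ} (hr : r < ‖f‖) :
    ∃ y : Y, ‖y‖ ≤ 1 ∧ r < f y := by
  obtain ⟨x, hx1, hx2⟩ := f.exists_lt_apply_of_lt_opNorm hr
  rw [Real.norm_eq_abs] at hx2
  by_cases h0 : 0 ≤ f x
  · refine ⟨x, hx1.le, ?_⟩
    rwa [abs_of_nonneg h0] at hx2
  · push Not at h0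
    refine ⟨-x, by rw [norm_neg]; exact hx1.le, ?_⟩
    rw [abs_of_neg h0] at hx2
    rw [map_neg]; exact hx2

/-- Non-strict form with a factor `θ < 1`, valid also for the zero functional. -/
theorem l2_exists_le_apply (f : Y →L[ℝ] ℝ) {θ : ℝ} (hθ1 : θ < 1) :
    ∃ y : Y, ‖y‖ ≤ 1 ∧ θ * ‖f‖ ≤ f y := by
  by_cases hf : ‖f‖ = 0
  · refine ⟨0, by simp, ?_⟩
    rw [hf]; simp
  · have hpos : 0 < ‖f‖ := lt_of_le_of_ne (norm_nonneg f) (Ne.symm hf)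
    have hlt : θ * ‖f‖ < ‖f‖ := by nlinarith
    obtain ⟨y, hy1, hy2⟩ := l2_exists_lt_apply f hlt
    exact ⟨y, hy1, hy2.le⟩

theorem IsL2Proj.norm_apply_le {P : Y →L[ℝ] Y} (hP : IsL2Proj P) (y : Y) : ‖P y‖ ≤ ‖y‖ := by
  have h := hP.2 y
  have h1 : ‖P y‖ ^ 2 ≤ ‖y‖ ^ 2 := by nlinarith [sq_nonneg ‖y - P y‖]
  exact le_of_sq_le_sq h1 (norm_nonneg y)

theorem IsL2Proj.norm_sub_apply_le {P : Y →L[ℝ] Y} (hP : IsL2Proj P) (y : Y) :
    ‖y - P y‖ ≤ ‖y‖ := by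
  have h := hP.2 y
  have h1 : ‖y - P y‖ ^ 2 ≤ ‖y‖ ^ 2 := by nlinarith [sq_nonneg ‖P y‖]
  exact le_of_sq_le_sq h1 (norm_nonneg y)

/-- Upper estimate: `‖g‖² ≤ ‖g ∘ P‖² + ‖g - g ∘ P‖²`. -/
theorem IsL2Proj.dual_le {P : Y →L[ℝ] Y} (hP : IsL2Proj P) (g : Y →L[ℝ] ℝ) :
    ‖g‖ ^ 2 ≤ ‖g.comp P‖ ^ 2 + ‖g - g.comp P‖ ^ 2 := by
  set a := ‖g.comp P‖ with ha
  set b := ‖g - g.comp P‖ with hb
  have ha0 : 0 ≤ a := norm_nonneg _
  have hb0 : 0 ≤ b := norm_nonneg _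
  have hS0 : 0 ≤ a ^ 2 + b ^ 2 := by positivity
  have hbound : ‖g‖ ≤ Real.sqrt (a ^ 2 + b ^ 2) := by
    refine ContinuousLinearMap.opNorm_le_bound _ (Real.sqrt_nonneg _) ?_
    intro y
    have h1 : g y = (g.comp P) (P y) + (g - g.comp P) (y - P y) := by
      simp only [ContinuousLinearMap.comp_apply, sub_apply, map_sub, hP.1 y]
      ring
    have h2 : |(g.comp P) (P y)| ≤ a * ‖P y‖ := by
      have := (g.comp P).le_opNorm (P y)
      rwa [Real.norm_eq_abs] at this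
    have h3 : |(g - g.comp P) (y - P y)| ≤ b * ‖y - P y‖ := by
      have := (g - g.comp P).le_opNorm (y - P y)
      rwa [Real.norm_eq_abs] at this
    have h4 : |g y| ≤ a * ‖P y‖ + b * ‖y - P y‖ := by
      rw [h1]
      exact (abs_add_le _ _).trans (add_le_add h2 h3)
    have hsplit := hP.2 y
    have hu0 : 0 ≤ ‖P y‖ := norm_nonneg _
    have hv0 : 0 ≤ ‖y - P y‖ := norm_nonneg _
    have h5 : (a * ‖P y‖ + b * ‖y - P y‖) ^ 2 ≤ (a ^ 2 + b ^ 2) * ‖y‖ ^ 2 := by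
      rw [hsplit]
      nlinarith [sq_nonneg (a * ‖y - P y‖ - b * ‖P y‖)]
    have h6 : a * ‖P y‖ + b * ‖y - P y‖ ≤ Real.sqrt (a ^ 2 + b ^ 2) * ‖y‖ := by
      have h7 : Real.sqrt (a ^ 2 + b ^ 2) * ‖y‖ = Real.sqrt ((a ^ 2 + b ^ 2) * ‖y‖ ^ 2) := by
        rw [Real.sqrt_mul hS0, Real.sqrt_sq (norm_nonneg y)]
      rw [h7]
      exact Real.le_sqrt_of_sq_le h5
    rw [Real.norm_eq_abs]
    exact h4.trans h6
  have h8 : ‖g‖ ^ 2 ≤ (Real.sqrt (a ^ 2 + b ^ 2)) ^ 2 :=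
    pow_le_pow_left₀ (norm_nonneg g) hbound 2
  rwa [Real.sq_sqrt hS0] at h8

/-- Key test-vector estimate for the lower bound. -/
theorem IsL2Proj.dual_test {P : Y →L[ℝ] Y} (hP : IsL2Proj P) (g : Y →L[ℝ] ℝ)
    {y1 y2 : Y} (h1 : ‖y1‖ ≤ 1) (h2 : ‖y2‖ ≤ 1) (α β : ℝ) :
    (α * (g.comp P) y1 + β * (g - g.comp P) y2) ^ 2 ≤ ‖g‖ ^ 2 * (α ^ 2 + β ^ 2) := by
  set w : Y := α • P y1 + β • (y2 - P y2) with hw
  have hPw : P w = α • P y1 := by
    rw [hw]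
    simp only [map_add, map_smul, map_sub, hP.1 y1, hP.1 y2, sub_self, smul_zero, add_zero]
  have hw2 : w - P w = β • (y2 - P y2) := by
    rw [hPw, hw]; abel
  have hnorm : ‖w‖ ^ 2 ≤ α ^ 2 + β ^ 2 := by
    rw [hP.2 w, hw2, hPw, norm_smul, norm_smul, mul_pow, mul_pow, Real.norm_eq_abs,
      Real.norm_eq_abs, sq_abs, sq_abs]
    have e1 : ‖P y1‖ ^ 2 ≤ 1 := by
      have := (hP.norm_apply_le y1).trans h1
      nlinarith [norm_nonneg (P y1)]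
    have e2 : ‖y2 - P y2‖ ^ 2 ≤ 1 := by
      have := (hP.norm_sub_apply_le y2).trans h2
      nlinarith [norm_nonneg (y2 - P y2)]
    nlinarith [sq_nonneg α, sq_nonneg β]
  have hgw : g w = α * (g.comp P) y1 + β * (g - g.comp P) y2 := by
    rw [hw]
    simp only [map_add, map_smul, map_sub, ContinuousLinearMap.comp_apply,
      sub_apply, smul_eq_mul]
  have hle : |g w| ≤ ‖g‖ * ‖w‖ := by
    have := g.le_opNorm w
    rwa [Real.norm_eq_abs] at this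
  rw [← hgw, ← sq_abs (g w)]
  calc |g w| ^ 2 ≤ (‖g‖ * ‖w‖) ^ 2 := pow_le_pow_left₀ (abs_nonneg _) hle 2
    _ = ‖g‖ ^ 2 * ‖w‖ ^ 2 := by ring
    _ ≤ ‖g‖ ^ 2 * (α ^ 2 + β ^ 2) := by
      exact mul_le_mul_of_nonneg_left hnorm (sq_nonneg _)

/-- Lower estimate: `‖g ∘ P‖² + ‖g - g ∘ P‖² ≤ ‖g‖²`. -/
theorem IsL2Proj.dual_ge {P : Y →L[ℝ] Y} (hP : IsL2Proj P) (g : Y →L[ℝ] ℝ) :
    ‖g.comp P‖ ^ 2 + ‖g - g.comp P‖ ^ 2 ≤ ‖g‖ ^ 2 := by
  set a := ‖g.comp P‖ with ha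
  set b := ‖g - g.comp P‖ with hb
  have ha0 : 0 ≤ a := norm_nonneg _
  have hb0 : 0 ≤ b := norm_nonneg _
  have key : ∀ θ : ℝ, 0 < θ → θ < 1 → θ ^ 2 * (a ^ 2 + b ^ 2) ≤ ‖g‖ ^ 2 := by
    intro θ hθ0 hθ1
    obtain ⟨y1, hy1, hy1'⟩ := l2_exists_le_apply (g.comp P) hθ1
    obtain ⟨y2, hy2, hy2'⟩ := l2_exists_le_apply (g - g.comp P) hθ1
    have ht := hP.dual_test g hy1 hy2 (θ * a) (θ * b)
    set S := (θ * a) ^ 2 + (θ * b) ^ 2 with hS
    have hS0 : 0 ≤ S := by positivity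
    have h1 : S ≤ θ * a * (g.comp P) y1 + θ * b * (g - g.comp P) y2 := by
      have e1 : (θ * a) * (θ * a) ≤ (θ * a) * (g.comp P) y1 :=
        mul_le_mul_of_nonneg_left hy1' (by positivity)
      have e2 : (θ * b) * (θ * b) ≤ (θ * b) * (g - g.comp P) y2 :=
        mul_le_mul_of_nonneg_left hy2' (by positivity)
      rw [hS]; nlinarith
    have h2 : S ^ 2 ≤ ‖g‖ ^ 2 * S := by
      calc S ^ 2 ≤ (θ * a * (g.comp P) y1 + θ * b * (g - g.comp P) y2) ^ 2 :=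
            pow_le_pow_left₀ hS0 h1 2
        _ ≤ ‖g‖ ^ 2 * S := ht
    have h3 : S ≤ ‖g‖ ^ 2 := by
      rcases hS0.eq_or_lt with h0 | hpos
      · rw [← h0]; positivity
      · by_contra hcon
        push Not at hcon
        nlinarith
    calc θ ^ 2 * (a ^ 2 + b ^ 2) = S := by rw [hS]; ring
      _ ≤ ‖g‖ ^ 2 := h3
  have hlim : Filter.Tendsto (fun θ : ℝ => θ ^ 2 * (a ^ 2 + b ^ 2)) (nhdsWithin 1 (Set.Iio 1))
      (nhds (1 ^ 2 * (a ^ 2 + b ^ 2))) := by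
    have hc : Continuous (fun θ : ℝ => θ ^ 2 * (a ^ 2 + b ^ 2)) := by fun_prop
    exact (hc.tendsto 1).mono_left nhdsWithin_le_nhds
  have hev : ∀ᶠ θ : ℝ in nhdsWithin 1 (Set.Iio 1), θ ^ 2 * (a ^ 2 + b ^ 2) ≤ ‖g‖ ^ 2 := by
    have hmem : Set.Ioo (0 : ℝ) 1 ∈ nhdsWithin (1 : ℝ) (Set.Iio 1) :=
      Ioo_mem_nhdsLT (by norm_num)
    filter_upwards [hmem] with θ hθ
    exact key θ hθ.1 hθ.2
  have := le_of_tendsto hlim hev
  simpa using this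

/-- (1) The dual of an l2-splitting projection is an l2-splitting projection. -/
theorem IsL2Proj.dual {P : Y →L[ℝ] Y} (hP : IsL2Proj P) : IsL2Proj (dualMap P) := by
  refine ⟨?_, ?_⟩
  · intro g
    rw [dualMap_apply, dualMap_apply]
    ext y
    simp only [ContinuousLinearMap.comp_apply, hP.1 y]
  · intro g
    rw [dualMap_apply]
    exact le_antisymm (hP.dual_le g) (hP.dual_ge g)

/-- (2) Strong convergence of l2-splitting projections to the identity dualizes. -/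
theorem tendsto_dualMap {P : ℕ → Y →L[ℝ] Y} (hP : ∀ m, IsL2Proj (P m))
    (hconv : ∀ y, Filter.Tendsto (fun m => P m y) Filter.atTop (nhds y)) (g : Y →L[ℝ] ℝ) :
    Filter.Tendsto (fun m => dualMap (P m) g) Filter.atTop (nhds g) := by
  have hid : ∀ m, ‖g‖ ^ 2 = ‖g.comp (P m)‖ ^ 2 + ‖g - g.comp (P m)‖ ^ 2 := by
    intro m
    have := (hP m).dual.2 g
    rwa [dualMap_apply] at this
  have hle : ∀ m, ‖g.comp (P m)‖ ≤ ‖g‖ := by
    intro m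
    have h1 : ‖g.comp (P m)‖ ^ 2 ≤ ‖g‖ ^ 2 := by
      nlinarith [hid m, sq_nonneg ‖g - g.comp (P m)‖]
    exact le_of_sq_le_sq h1 (norm_nonneg g)
  have hnorm : Filter.Tendsto (fun m => ‖g.comp (P m)‖) Filter.atTop (nhds ‖g‖) := by
    rw [tendsto_order]
    refine ⟨?_, ?_⟩
    · intro r hr
      obtain ⟨y, hy1, hy2⟩ := l2_exists_lt_apply g hr
      have ht : Filter.Tendsto (fun m => g (P m y)) Filter.atTop (nhds (g y)) :=
        (g.continuous.tendsto y).comp (hconv y)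
      have hev := ht.eventually (lt_mem_nhds hy2)
      filter_upwards [hev] with m hm
      have h1 : g (P m y) ≤ ‖g.comp (P m)‖ * ‖y‖ := by
        have := (g.comp (P m)).le_opNorm y
        rw [Real.norm_eq_abs] at this
        exact (le_abs_self _).trans this
      have h2 : ‖g.comp (P m)‖ * ‖y‖ ≤ ‖g.comp (P m)‖ := by
        have := mul_le_mul_of_nonneg_left hy1 (norm_nonneg (g.comp (P m)))
        simpa using this
      linarith
    · intro r hr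
      exact Filter.Eventually.of_forall (fun m => lt_of_le_of_lt (hle m) hr)
  have hsq : Filter.Tendsto (fun m => ‖g - g.comp (P m)‖ ^ 2) Filter.atTop (nhds 0) := by
    have h1 : Filter.Tendsto (fun m => ‖g‖ ^ 2 - ‖g.comp (P m)‖ ^ 2) Filter.atTop
        (nhds (‖g‖ ^ 2 - ‖g‖ ^ 2)) := tendsto_const_nhds.sub (hnorm.pow 2)
    rw [sub_self] at h1
    refine h1.congr (fun m => ?_)
    linarith [hid m]
  have hsqrt : Filter.Tendsto (fun m => ‖g - g.comp (P m)‖) Filter.atTop (nhds 0) := by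
    have h1 := (Real.continuous_sqrt.tendsto 0).comp hsq
    rw [Real.sqrt_zero] at h1
    refine h1.congr (fun m => ?_)
    simp only [Function.comp_apply]
    exact Real.sqrt_sq (norm_nonneg _)
  rw [tendsto_iff_norm_sub_tendsto_zero]
  refine hsqrt.congr (fun m => ?_)
  rw [dualMap_apply, norm_sub_rev]

/-- (3) If `Z` is dense in its bidual, then the dual of `Z` is reflexive. -/
theorem surjective_inclusionInDoubleDual_dual {Z : Type*} [NormedAddCommGroup Z]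
    [NormedSpace ℝ Z]
    (h : ∀ ξ : (Z →L[ℝ] ℝ) →L[ℝ] ℝ, ∀ ε > 0,
      ∃ z : Z, ‖ξ - NormedSpace.inclusionInDoubleDual ℝ Z z‖ < ε) :
    Function.Surjective (NormedSpace.inclusionInDoubleDual ℝ (Z →L[ℝ] ℝ)) := by
  intro Φ
  set f : Z →L[ℝ] ℝ := Φ.comp (NormedSpace.inclusionInDoubleDual ℝ Z) with hf
  refine ⟨f, ?_⟩
  ext ξ
  rw [NormedSpace.dual_def]
  by_contra hne
  have hpos : 0 < |ξ f - Φ ξ| := abs_pos.2 (sub_ne_zero.2 hne)
  set C : ℝ := ‖Φ‖ + ‖f‖ + 1 with hC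
  have hC0 : 0 < C := by positivity
  obtain ⟨z, hz⟩ := h ξ (|ξ f - Φ ξ| / C) (div_pos hpos hC0)
  set η := ξ - NormedSpace.inclusionInDoubleDual ℝ Z z with hη
  have e1 : ξ f - Φ ξ = η f - Φ η := by
    have e2 : ξ = η + NormedSpace.inclusionInDoubleDual ℝ Z z := by rw [hη]; abel
    have e3 : Φ (NormedSpace.inclusionInDoubleDual ℝ Z z) = f z := by
      rw [hf]; rfl
    have e4 : (NormedSpace.inclusionInDoubleDual ℝ Z z) f = f z := NormedSpace.dual_def ℝ Z z f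
    conv_lhs => rw [e2]
    rw [add_apply, map_add, e3, e4]
    ring
  have b1 : |η f| ≤ ‖η‖ * ‖f‖ := by
    have := η.le_opNorm f
    rwa [Real.norm_eq_abs] at this
  have b2 : |Φ η| ≤ ‖Φ‖ * ‖η‖ := by
    have := Φ.le_opNorm η
    rwa [Real.norm_eq_abs] at this
  have b3 : |ξ f - Φ ξ| ≤ ‖η‖ * C := by
    rw [e1, hC]
    have := abs_sub (η f) (Φ η)
    nlinarith [norm_nonneg η]
  have b4 : ‖η‖ * C < |ξ f - Φ ξ| := by
    have := mul_lt_mul_of_pos_right hz hC0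
    rwa [div_mul_cancel₀ _ hC0.ne'] at this
  linarith

end Vale.Agent.Lib.P069
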