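import Vale.Agent.Lib.P069.JTBasic
import Vale.Agent.Lib.P069.L2Proj

namespace Vale.Agent.Lib.P069

open Finset

namespace JT

/-- Unit vector at a node. -/
noncomputable def single (t : Node) : JT := JT.of (Finsupp.single t (1 : ℝ))

theorem single_apply (t s : Node) : single t s = if t = s then 1 else 0 := by
  show (Finsupp.single t (1 : ℝ)) s = _
  exact Finsupp.single_apply

theorem norm_single_le (t : Node) : ‖single t‖ ≤ 1 := by
  refine norm_le_of_forall fun l hl => ?_
  have h := val_le_sq_sum_abs l hl.2 (single t) {t} (fun s hs => by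
    rw [single_apply, if_neg]
    intro h
    exact hs (Finset.mem_singleton.mpr h.symm))
  rw [Finset.sum_singleton, single_apply, if_pos rfl, abs_one, one_pow] at h
  calc Real.sqrt (val l (single t)) ≤ Real.sqrt 1 := Real.sqrt_le_sqrt h
    _ = 1 := Real.sqrt_one

theorem sum_apply {ι : Type*} (B : Finset ι) (y : ι → JT) (t : Node) :
    (∑ i ∈ B, y i) t = ∑ i ∈ B, y i t := by
  classical
  induction B using Finset.induction_on with
  | empty => simp
  | insert a s ha ih => rw [Finset.sum_insert ha, Finset.sum_insert ha, add_apply, ih]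

theorem eq_sum_single (x : JT) : x = ∑ t ∈ x.supp, x t • single t := by
  ext s
  rw [sum_apply]
  have e : ∀ t, (x t • single t) s = if t = s then x t else 0 := by
    intro t
    rw [smul_apply, single_apply]
    split_ifs <;> simp
  simp only [e]
  rw [Finset.sum_ite_eq']
  split_ifs with h
  · rfl
  · by_contra h'
    exact h (mem_supp.mpr h')

/-- Coordinate functional at a node. -/
noncomputable def coord (t : Node) : JT →L[ℝ] ℝ :=
  LinearMap.mkContinuous
    { toFun := fun x => x t
      map_add' := fun x y => add_apply x y t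
      map_smul' := fun c x => smul_apply c x t } 1
    (fun x => by
      rw [one_mul]
      exact abs_apply_le_norm x t)

theorem coord_apply (t : Node) (x : JT) : coord t x = x t := rfl

theorem norm_coord_le (t : Node) : ‖coord t‖ ≤ 1 :=
  LinearMap.mkContinuous_norm_le _ zero_le_one _

theorem one_le_norm_coord (t : Node) : 1 ≤ ‖coord t‖ := by
  have h := (coord t).le_opNorm (single t)
  rw [coord_apply, single_apply, if_pos rfl, norm_one] at h
  have h2 : ‖coord t‖ * ‖single t‖ ≤ ‖coord t‖ * 1 :=
    mul_le_mul_of_nonneg_left (norm_single_le t) (norm_nonneg _)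
  linarith

theorem apply_eq_sum (f : JT →L[ℝ] ℝ) (x : JT) :
    f x = ∑ t ∈ x.supp, x t * f (single t) := by
  have h : f x = f (∑ t ∈ x.supp, x t • single t) := congrArg f (eq_sum_single x)
  rw [h, map_sum]
  refine Finset.sum_congr rfl fun t _ => ?_
  rw [map_smul, smul_eq_mul]

theorem norm_sum_coord_le {S : Finset Node} (hS : IsSeg S) : ‖∑ t ∈ S, coord t‖ ≤ 1 := by
  refine ContinuousLinearMap.opNorm_le_bound _ zero_le_one fun x => ?_
  rw [_root_.sum_apply, one_mul, Real.norm_eq_abs]
  exact abs_segSum_le_norm hS x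

theorem norm_sum_smul_coord_le (B : Finset Node) (a : Node → ℝ) :
    ‖∑ t ∈ B, a t • coord t‖ ≤ Real.sqrt (∑ t ∈ B, a t ^ 2) := by
  refine ContinuousLinearMap.opNorm_le_bound _ (Real.sqrt_nonneg _) fun x => ?_
  rw [_root_.sum_apply, Real.norm_eq_abs]
  have e : ∀ t, (a t • coord t) x = a t * x t := fun t => by
    rw [_root_.smul_apply, coord_apply, smul_eq_mul]
  simp only [e]
  have h1 : |∑ t ∈ B, a t * x t| ≤ ∑ t ∈ B, |a t| * |x t| := by
    refine (Finset.abs_sum_le_sum_abs _ _).trans (le_of_eq ?_)
    refine Finset.sum_congr rfl fun t _ => abs_mul _ _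
  have h2 := Real.sum_mul_le_sqrt_mul_sqrt B (fun t => |a t|) (fun t => |x t|)
  simp only [sq_abs] at h2
  have h3 : Real.sqrt (∑ t ∈ B, x t ^ 2) ≤ ‖x‖ := by
    rw [Real.sqrt_le_left (norm_nonneg x)]
    exact sum_sq_le_norm_sq B x
  calc |∑ t ∈ B, a t * x t| ≤ ∑ t ∈ B, |a t| * |x t| := h1
    _ ≤ Real.sqrt (∑ t ∈ B, a t ^ 2) * Real.sqrt (∑ t ∈ B, x t ^ 2) := h2
    _ ≤ Real.sqrt (∑ t ∈ B, a t ^ 2) * ‖x‖ :=
        mul_le_mul_of_nonneg_left h3 (Real.sqrt_nonneg _)

/-- Square-summability of the values of a functional on the dual at the coordinate functionals. -/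
theorem sum_sq_apply_coord_le (ξ : (JT →L[ℝ] ℝ) →L[ℝ] ℝ) (B : Finset Node) :
    ∑ t ∈ B, ξ (coord t) ^ 2 ≤ ‖ξ‖ ^ 2 := by
  set T : ℝ := ∑ t ∈ B, ξ (coord t) ^ 2 with hT
  have hT0 : 0 ≤ T := Finset.sum_nonneg fun t _ => sq_nonneg _
  have h1 : T = ξ (∑ t ∈ B, ξ (coord t) • coord t) := by
    rw [map_sum, hT]
    refine Finset.sum_congr rfl fun t _ => ?_
    rw [map_smul, smul_eq_mul, sq]
  have h2 : T ≤ ‖ξ‖ * Real.sqrt T := by
    have h3 := ξ.le_opNorm (∑ t ∈ B, ξ (coord t) • coord t)
    rw [← h1, Real.norm_eq_abs, abs_of_nonneg hT0] at h3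
    refine h3.trans (mul_le_mul_of_nonneg_left ?_ (norm_nonneg _))
    exact norm_sum_smul_coord_le B fun t => ξ (coord t)
  have hs := Real.sq_sqrt hT0
  have hs0 := Real.sqrt_nonneg T
  have hn := norm_nonneg ξ
  by_cases hz : Real.sqrt T = 0
  · rw [hz] at hs
    have : T = 0 := by rw [← hs]; ring
    rw [this]
    positivity
  · have hpos : 0 < Real.sqrt T := lt_of_le_of_ne hs0 (Ne.symm hz)
    have h4 : Real.sqrt T ≤ ‖ξ‖ := by
      by_contra hlt
      rw [not_le] at hlt
      nlinarith
    nlinarith

theorem tendsto_apply_coord (ξ : (JT →L[ℝ] ℝ) →L[ℝ] ℝ) (t : ℕ → Node)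
    (ht : Function.Injective t) :
    Filter.Tendsto (fun k => ξ (coord (t k))) Filter.atTop (nhds 0) := by
  have hsum : Summable (fun k => ξ (coord (t k)) ^ 2) := by
    refine summable_of_sum_range_le (c := ‖ξ‖ ^ 2) (fun k => sq_nonneg _) fun n => ?_
    have e : ∑ k ∈ Finset.range n, ξ (coord (t k)) ^ 2
        = ∑ s ∈ (Finset.range n).image t, ξ (coord s) ^ 2 := by
      rw [Finset.sum_image]
      intro a _ b _ hab
      exact ht hab
    rw [e]
    exact sum_sq_apply_coord_le ξ _
  have h0 := hsum.tendsto_atTop_zero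
  have h1 := (Real.continuous_sqrt.tendsto 0).comp h0
  rw [Real.sqrt_zero] at h1
  have h2 : (Real.sqrt ∘ fun k => ξ (coord (t k)) ^ 2) = fun k => |ξ (coord (t k))| := by
    funext k
    simp only [Function.comp_apply]
    exact Real.sqrt_sq_eq_abs _
  rw [h2] at h1
  exact (tendsto_zero_iff_abs_tendsto_zero _).2 h1

/-- Restriction to the nodes whose head is below `m`, as a continuous linear map. -/
noncomputable def blockProj (m : ℕ) : JT →L[ℝ] JT :=
  LinearMap.mkContinuous
    { toFun := fun x => restrict (fun t => t.headD 0 < m) x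
      map_add' := fun x y => by
        ext t
        simp only [restrict_apply, add_apply]
        split_ifs <;> simp
      map_smul' := fun c x => by
        ext t
        simp only [restrict_apply, smul_apply, RingHom.id_apply]
        split_ifs <;> simp } 1
    (fun x => by
      rw [one_mul]
      exact norm_restrict_le _
        (fun S hS => hS.filter_head_isSeg _ fun s t hst => by rw [hst]) x)

theorem blockProj_apply (m : ℕ) (x : JT) (t : Node) :
    blockProj m x t = if t.headD 0 < m then x t else 0 :=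
  restrict_apply _ x t

theorem isL2Proj_blockProj (m : ℕ) : IsL2Proj (blockProj m) := by
  refine ⟨fun y => ?_, fun y => ?_⟩
  · ext t
    simp only [blockProj_apply]
    split_ifs <;> rfl
  · have hp : ∀ s t : Node, s.headD 0 = t.headD 0 → (s.headD 0 < m ↔ t.headD 0 < m) :=
      fun s t hst => by rw [hst]
    have h := norm_sq_block (fun t : Node => t.headD 0 < m) hp y
    have e1 : blockProj m y = restrict (fun t : Node => t.headD 0 < m) y := rfl
    have e2 : y - blockProj m y = restrict (fun t : Node => ¬ t.headD 0 < m) y := by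
      ext t
      simp only [sub_apply, blockProj_apply, restrict_apply]
      split_ifs <;> simp
    rw [e1] at e2 ⊢
    rw [e2]
    exact h

theorem tendsto_blockProj (x : JT) :
    Filter.Tendsto (fun m => blockProj m x) Filter.atTop (nhds x) := by
  refine tendsto_atTop_of_eventually_const
    (i₀ := x.supp.sup (fun t : Node => t.headD 0) + 1) fun m hm => ?_
  ext t
  rw [blockProj_apply]
  split_ifs with h
  · rfl
  · by_contra h'
    have ht : t ∈ x.supp := mem_supp.mpr (Ne.symm h')
    have hle : t.headD 0 ≤ x.supp.sup (fun t : Node => t.headD 0) :=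
      Finset.le_sup (f := fun t : Node => t.headD 0) ht
    exact h (by omega)

end JT

end Vale.Agent.Lib.P069
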