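import Mathlib

namespace Vale.Agent.Lib.P069

open Finset

/-- Nodes of the forest: finite lists of naturals, ordered by the initial-part relation. -/
abbrev Node := List ℕ

/-- A segment: a finite convex chain of nodes with at most `head + 1` elements. -/
def IsSeg (S : Finset Node) : Prop :=
  (∀ s ∈ S, ∀ t ∈ S, s <+: t ∨ t <+: s) ∧
  (∀ s ∈ S, ∀ t ∈ S, ∀ r : Node, s <+: r → r <+: t → r ∈ S) ∧
  (∀ t ∈ S, S.card ≤ t.headD 0 + 1)

/-- An admissible family: a list of pairwise disjoint segments. -/
def IsFam (l : List (Finset Node)) : Prop :=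
  (∀ S ∈ l, IsSeg S) ∧ l.Pairwise Disjoint

/-- Sum of a function over a finite set of nodes. -/
def segSum (x : Node → ℝ) (S : Finset Node) : ℝ := ∑ t ∈ S, x t

/-- The quadratic value of a family at a function. -/
def val (l : List (Finset Node)) (x : Node → ℝ) : ℝ :=
  (l.map fun S => (segSum x S) ^ 2).sum

theorem val_nil (x : Node → ℝ) : val [] x = 0 := rfl

theorem val_cons (S : Finset Node) (l : List (Finset Node)) (x : Node → ℝ) :
    val (S :: l) x = (segSum x S) ^ 2 + val l x := by
  simp [val]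

theorem val_nonneg (l : List (Finset Node)) (x : Node → ℝ) : 0 ≤ val l x := by
  induction l with
  | nil => simp [val_nil]
  | cons S l ih => rw [val_cons]; positivity

theorem segSum_add (x y : Node → ℝ) (S : Finset Node) :
    segSum (x + y) S = segSum x S + segSum y S := by
  simp [segSum, Finset.sum_add_distrib]

theorem segSum_smul (c : ℝ) (x : Node → ℝ) (S : Finset Node) :
    segSum (c • x) S = c * segSum x S := by
  simp [segSum, Finset.mul_sum]

theorem val_smul (c : ℝ) (l : List (Finset Node)) (x : Node → ℝ) :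
    val l (c • x) = c ^ 2 * val l x := by
  induction l with
  | nil => simp [val_nil]
  | cons S l ih => rw [val_cons, val_cons, ih, segSum_smul]; ring

/-- Minkowski inequality for the square root of the quadratic value. -/
theorem sqrt_val_add_le (l : List (Finset Node)) (x y : Node → ℝ) :
    Real.sqrt (val l (x + y)) ≤ Real.sqrt (val l x) + Real.sqrt (val l y) := by
  induction l with
  | nil => simp [val_nil]
  | cons S l ih =>
    rw [val_cons, val_cons, val_cons, segSum_add]
    set a := segSum x S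
    set b := segSum y S
    set A := val l x with hA
    set B := val l y with hB
    set P := val l (x + y) with hP
    have hA0 : 0 ≤ A := val_nonneg l x
    have hB0 : 0 ≤ B := val_nonneg l y
    have hP0 : 0 ≤ P := val_nonneg l (x + y)
    have hPle : P ≤ (Real.sqrt A + Real.sqrt B) ^ 2 := (Real.sqrt_le_iff.mp ih).2
    have hsA := Real.sq_sqrt hA0
    have hsB := Real.sq_sqrt hB0
    have hsa : Real.sqrt (a ^ 2 + A) ^ 2 = a ^ 2 + A := Real.sq_sqrt (by positivity)
    have hsb : Real.sqrt (b ^ 2 + B) ^ 2 = b ^ 2 + B := Real.sq_sqrt (by positivity)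
    have key : a * b + Real.sqrt A * Real.sqrt B ≤
        Real.sqrt (a ^ 2 + A) * Real.sqrt (b ^ 2 + B) := by
      have e : Real.sqrt (a ^ 2 + A) * Real.sqrt (b ^ 2 + B) =
          Real.sqrt ((a ^ 2 + A) * (b ^ 2 + B)) := (Real.sqrt_mul (by positivity) _).symm
      rw [e]
      refine (le_abs_self _).trans (Real.abs_le_sqrt ?_)
      nlinarith [sq_nonneg (a * Real.sqrt B - b * Real.sqrt A), Real.sqrt_nonneg A,
        Real.sqrt_nonneg B]
    refine Real.sqrt_le_iff.mpr ⟨by positivity, ?_⟩
    nlinarith [Real.sqrt_nonneg A, Real.sqrt_nonneg B, Real.sqrt_nonneg (a ^ 2 + A),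
      Real.sqrt_nonneg (b ^ 2 + B)]

/-- A disjoint list of finite sets carries at most the total mass. -/
theorem sum_inter_le (g : Node → ℝ) (hg : ∀ t, 0 ≤ g t) (l : List (Finset Node))
    (hl : l.Pairwise Disjoint) (s : Finset Node) :
    (l.map fun S => ∑ t ∈ S ∩ s, g t).sum ≤ ∑ t ∈ s, g t := by
  induction l generalizing s with
  | nil => simpa using Finset.sum_nonneg fun t _ => hg t
  | cons S l ih =>
    rw [List.pairwise_cons] at hl
    obtain ⟨hS, hl'⟩ := hl
    rw [List.map_cons, List.sum_cons]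
    have hrest : (l.map fun S' => ∑ t ∈ S' ∩ s, g t) = (l.map fun S' => ∑ t ∈ S' ∩ (s \ S), g t) := by
      refine List.map_congr_left fun S' hS' => ?_
      have hd : Disjoint S S' := hS S' hS'
      congr 1
      ext t
      simp only [Finset.mem_inter, Finset.mem_sdiff]
      constructor
      · rintro ⟨h1, h2⟩
        exact ⟨h1, h2, fun h3 => Finset.disjoint_left.mp hd h3 h1⟩
      · rintro ⟨h1, h2, -⟩
        exact ⟨h1, h2⟩
    rw [hrest]
    have h1 := ih hl' (s \ S)
    have h2 : ∑ t ∈ S ∩ s, g t + ∑ t ∈ s \ S, g t = ∑ t ∈ s, g t := by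
      rw [Finset.inter_comm]
      exact Finset.sum_inter_add_sum_sdiff s S g
    linarith

/-- Crude bound of the quadratic value of a disjoint list by the squared `l1` mass. -/
theorem val_le_sq_sum_abs (l : List (Finset Node)) (hl : l.Pairwise Disjoint) (x : Node → ℝ)
    (s : Finset Node) (hx : ∀ t, t ∉ s → x t = 0) :
    val l x ≤ (∑ t ∈ s, |x t|) ^ 2 := by
  set L := ∑ t ∈ s, |x t| with hL
  have hL0 : 0 ≤ L := Finset.sum_nonneg fun t _ => abs_nonneg _
  have h1 : val l x ≤ (l.map fun S => (∑ t ∈ S ∩ s, |x t|) * L).sum := by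
    unfold val
    refine List.sum_le_sum fun S _ => ?_
    have e : segSum x S = ∑ t ∈ S ∩ s, x t := by
      unfold segSum
      symm
      refine Finset.sum_subset Finset.inter_subset_left fun t ht hts => ?_
      exact hx t fun h => hts (Finset.mem_inter.mpr ⟨ht, h⟩)
    have h2 : |segSum x S| ≤ ∑ t ∈ S ∩ s, |x t| := by
      rw [e]; exact Finset.abs_sum_le_sum_abs _ _
    have h3 : ∑ t ∈ S ∩ s, |x t| ≤ L :=
      Finset.sum_le_sum_of_subset_of_nonneg Finset.inter_subset_right fun t _ _ => abs_nonneg _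
    have h4 : 0 ≤ ∑ t ∈ S ∩ s, |x t| := Finset.sum_nonneg fun t _ => abs_nonneg _
    calc (segSum x S) ^ 2 = |segSum x S| ^ 2 := (sq_abs _).symm
      _ ≤ (∑ t ∈ S ∩ s, |x t|) ^ 2 := by gcongr
      _ ≤ (∑ t ∈ S ∩ s, |x t|) * L := by nlinarith
  have h5 : (l.map fun S => (∑ t ∈ S ∩ s, |x t|) * L).sum =
      (l.map fun S => ∑ t ∈ S ∩ s, |x t|).sum * L := by
    rw [List.sum_map_mul_right]
  have h6 := sum_inter_le (fun t => |x t|) (fun t => abs_nonneg _) l hl s
  calc val l x ≤ (l.map fun S => ∑ t ∈ S ∩ s, |x t|).sum * L := h5 ▸ h1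
    _ ≤ L * L := by gcongr
    _ = L ^ 2 := by ring

/-- The underlying vector space: finitely supported functions on the nodes. -/
def JT : Type := Node →₀ ℝ

namespace JT

noncomputable instance : AddCommGroup JT := inferInstanceAs (AddCommGroup (Node →₀ ℝ))
noncomputable instance : Module ℝ JT := inferInstanceAs (Module ℝ (Node →₀ ℝ))
instance : FunLike JT Node ℝ := inferInstanceAs (FunLike (Node →₀ ℝ) Node ℝ)

/-- View a finitely supported function as an element of `JT`. -/
def of (x : Node →₀ ℝ) : JT := x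

/-- The finite support. -/
def supp (x : JT) : Finset Node := Finsupp.support (show Node →₀ ℝ from x)

theorem mem_supp {x : JT} {t : Node} : t ∈ x.supp ↔ x t ≠ 0 :=
  Finsupp.mem_support_iff

theorem coe_add (x y : JT) : ⇑(x + y) = ⇑x + ⇑y := Finsupp.coe_add _ _
theorem coe_smul (c : ℝ) (x : JT) : ⇑(c • x) = c • ⇑x := Finsupp.coe_smul _ _
theorem coe_zero : ⇑(0 : JT) = 0 := Finsupp.coe_zero
theorem coe_neg (x : JT) : ⇑(-x) = -⇑x := Finsupp.coe_neg _
theorem coe_sub (x y : JT) : ⇑(x - y) = ⇑x - ⇑y := Finsupp.coe_sub _ _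
@[simp] theorem add_apply (x y : JT) (t : Node) : (x + y) t = x t + y t := Finsupp.add_apply _ _ _
@[simp] theorem smul_apply (c : ℝ) (x : JT) (t : Node) : (c • x) t = c * x t :=
  Finsupp.smul_apply _ _ _
@[simp] theorem zero_apply (t : Node) : (0 : JT) t = 0 := Finsupp.zero_apply
@[simp] theorem neg_apply (x : JT) (t : Node) : (-x) t = -x t := Finsupp.neg_apply _ _
@[simp] theorem sub_apply (x y : JT) (t : Node) : (x - y) t = x t - y t := Finsupp.sub_apply _ _ _

@[ext] theorem ext {x y : JT} (h : ∀ t, x t = y t) : x = y := Finsupp.ext h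

theorem bddAbove_range (x : JT) :
    BddAbove (Set.range fun l : {l : List (Finset Node) // IsFam l} => Real.sqrt (val l.1 x)) := by
  refine ⟨Real.sqrt ((∑ t ∈ x.supp, |x t|) ^ 2), ?_⟩
  rintro _ ⟨l, rfl⟩
  refine Real.sqrt_le_sqrt ?_
  exact val_le_sq_sum_abs l.1 l.2.2 x x.supp fun t ht => by
    by_contra h; exact ht (mem_supp.mpr h)

noncomputable instance : Norm JT :=
  ⟨fun x => ⨆ l : {l : List (Finset Node) // IsFam l}, Real.sqrt (val l.1 x)⟩

theorem norm_def (x : JT) :
    ‖x‖ = ⨆ l : {l : List (Finset Node) // IsFam l}, Real.sqrt (val l.1 x) := rfl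

theorem isFam_nil : IsFam [] := ⟨by simp, List.Pairwise.nil⟩

instance : Nonempty {l : List (Finset Node) // IsFam l} := ⟨⟨[], isFam_nil⟩⟩

theorem sqrt_val_le_norm {l : List (Finset Node)} (hl : IsFam l) (x : JT) :
    Real.sqrt (val l x) ≤ ‖x‖ :=
  le_ciSup (bddAbove_range x) ⟨l, hl⟩

theorem norm_nonneg' (x : JT) : 0 ≤ ‖x‖ :=
  (Real.sqrt_nonneg _).trans (sqrt_val_le_norm isFam_nil x)

theorem val_le_norm_sq {l : List (Finset Node)} (hl : IsFam l) (x : JT) :
    val l x ≤ ‖x‖ ^ 2 := by
  have h := sqrt_val_le_norm hl x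
  exact (Real.sqrt_le_left (norm_nonneg' x)).mp h |>.trans (le_of_eq rfl)

theorem norm_le_of_forall {x : JT} {b : ℝ}
    (h : ∀ l, IsFam l → Real.sqrt (val l x) ≤ b) : ‖x‖ ≤ b :=
  ciSup_le fun l => h l.1 l.2

theorem norm_sq_le_of_forall {x : JT} {B : ℝ}
    (h : ∀ l, IsFam l → val l x ≤ B) : ‖x‖ ^ 2 ≤ B := by
  have hB : 0 ≤ B := (val_nonneg [] x).trans (h [] isFam_nil)
  have h1 : ‖x‖ ≤ Real.sqrt B := norm_le_of_forall fun l hl => Real.sqrt_le_sqrt (h l hl)
  calc ‖x‖ ^ 2 ≤ Real.sqrt B ^ 2 := by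
        have := norm_nonneg' x
        gcongr
    _ = B := Real.sq_sqrt hB

theorem isSeg_singleton (t : Node) : IsSeg {t} := by
  refine ⟨?_, ?_, ?_⟩
  · intro s hs r hr
    rw [Finset.mem_singleton] at hs hr
    subst hs; subst hr
    exact Or.inl (List.prefix_refl _)
  · intro s hs r hr q h1 h2
    rw [Finset.mem_singleton] at hs hr ⊢
    subst hs; subst hr
    exact h2.eq_of_length_le h1.length_le
  · intro r _
    simp

theorem isFam_singleton {S : Finset Node} (hS : IsSeg S) : IsFam [S] :=
  ⟨by simpa using hS, List.pairwise_singleton _ _⟩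

theorem abs_segSum_le_norm {S : Finset Node} (hS : IsSeg S) (x : JT) :
    |segSum x S| ≤ ‖x‖ := by
  have h := sqrt_val_le_norm (isFam_singleton hS) x
  rw [val_cons, val_nil, add_zero, Real.sqrt_sq_eq_abs] at h
  exact h

theorem abs_apply_le_norm (x : JT) (t : Node) : |x t| ≤ ‖x‖ := by
  have h := abs_segSum_le_norm (isSeg_singleton t) x
  simpa [segSum] using h

theorem normCore : NormedSpace.Core ℝ JT where
  norm_nonneg := norm_nonneg'
  norm_smul c x := by
    rw [norm_def, norm_def, Real.norm_eq_abs, Real.mul_iSup_of_nonneg (abs_nonneg c)]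
    congr 1
    funext l
    rw [coe_smul, val_smul, Real.sqrt_mul (sq_nonneg c), Real.sqrt_sq_eq_abs]
  norm_triangle x y := by
    refine norm_le_of_forall fun l hl => ?_
    rw [coe_add]
    exact (sqrt_val_add_le l x y).trans
      (add_le_add (sqrt_val_le_norm hl x) (sqrt_val_le_norm hl y))
  norm_eq_zero_iff x := by
    constructor
    · intro h
      ext t
      have := abs_apply_le_norm x t
      rw [h] at this
      simpa using abs_nonpos_iff.mp this
    · rintro rfl
      refine le_antisymm (norm_le_of_forall fun l _ => ?_) (norm_nonneg' 0)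
      have : val l (⇑(0 : JT)) = 0 := by
        have h0 := val_smul 0 l (⇑(0 : JT))
        rw [zero_smul] at h0
        rw [coe_zero, h0]; ring
      rw [this, Real.sqrt_zero]

noncomputable instance : NormedAddCommGroup JT := NormedAddCommGroup.ofCore normCore
noncomputable instance : NormedSpace ℝ JT := NormedSpace.ofCore normCore

end JT

end Vale.Agent.Lib.P069
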