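import Vale.Agent.Lib.P069.JTOneSub

namespace Vale.Agent.Lib.P069

open Finset

/-- Key estimate: a perturbation `u` living off a finite set `A` closed under initial parts
splits as `w₁ + w₂` with second-order control of `‖x₀ + θ w₁‖` and `‖x₀ - θ w₂‖`. -/
theorem key_estimate (A : Finset Node) (hA : ∀ t ∈ A, ∀ r, r <+: t → r ∈ A) (x₀ u : JT)
    (hx : ∀ t, t ∉ A → x₀ t = 0) (hu : ∀ t ∈ A, u t = 0) (θ : ℝ) (hθ : 0 ≤ θ) :
    ∃ w₁ w₂ : JT, w₁ + w₂ = u ∧ (∀ t, u t = 0 → w₁ t = 0 ∧ w₂ t = 0) ∧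
      ‖x₀ + θ • w₁‖ ^ 2 ≤ ‖x₀‖ ^ 2 + 3 * θ ^ 2 * ‖u‖ ^ 2 ∧
      ‖x₀ - θ • w₂‖ ^ 2 ≤ ‖x₀‖ ^ 2 + 3 * θ ^ 2 * ‖u‖ ^ 2 := by
  induction' hn : u.supp.card using Nat.strong_induction_on with n ih generalizing u
  by_cases h0 : u = 0
  · subst h0
    refine ⟨0, 0, by simp, fun t _ => ⟨by simp, by simp⟩, ?_, ?_⟩
    · simp
    · simp
  · have hex : ∃ v, u v ≠ 0 := by
      by_contra hcon
      push Not at hcon
      exact h0 (JT.ext (by simpa using hcon))
    obtain ⟨v, hv⟩ := hex
    have hvA : v ∉ A := fun h => hv (hu v h)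
    have hne : (v.inits.toFinset.filter (fun r => r ∉ A)).Nonempty :=
      ⟨v, Finset.mem_filter.mpr ⟨List.mem_toFinset.mpr ((List.mem_inits _ _).mpr
        (List.prefix_refl v)), hvA⟩⟩
    obtain ⟨d, hd, hdmin⟩ := Finset.exists_min_image _ List.length hne
    have hd' := Finset.mem_filter.mp hd
    have hdv : d <+: v := (List.mem_inits _ _).mp (List.mem_toFinset.mp hd'.1)
    have hdA : d ∉ A := hd'.2
    have hproper : ∀ r, r <+: d → r ≠ d → r ∈ A := by
      intro r hrd hne'
      by_contra hrA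
      have hr : r ∈ v.inits.toFinset.filter (fun r => r ∉ A) :=
        Finset.mem_filter.mpr ⟨List.mem_toFinset.mpr ((List.mem_inits _ _).mpr
          (hrd.trans hdv)), hrA⟩
      exact hne' (hrd.eq_of_length_le (hdmin r hr))
    have hup : ∀ s r : Node, d <+: s → s <+: r → d <+: r := fun s r h1 h2 => h1.trans h2
    have hsum : JT.restrict (fun t => d <+: t) u + JT.restrict (fun t => ¬ d <+: t) u = u :=
      JT.restrict_add_restrict_not (fun t => d <+: t) u
    have hnorm := JT.norm_sq_restrict_add_le (fun t => d <+: t)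
      (fun S hS => hS.filter_up (fun t => d <+: t) hup)
      (fun S hS => hS.filter_not_of_up (fun t => d <+: t) hup) u
    obtain ⟨ud, hud⟩ : ∃ ud, ud = JT.restrict (fun t => d <+: t) u := ⟨_, rfl⟩
    obtain ⟨u', hu'def⟩ : ∃ u', u' = JT.restrict (fun t => ¬ d <+: t) u := ⟨_, rfl⟩
    rw [← hud, ← hu'def] at hsum hnorm
    have hud_apply : ∀ t, ud t = if d <+: t then u t else 0 := by
      intro t; rw [hud]; exact JT.restrict_apply _ u t
    have hu'_apply : ∀ t, u' t = if d <+: t then 0 else u t := by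
      intro t; rw [hu'def, JT.restrict_apply]
      by_cases h : d <+: t
      · rw [if_neg (not_not.mpr h), if_pos h]
      · rw [if_pos h, if_neg h]
    have hu'v : u' v = 0 := by rw [hu'_apply, if_pos hdv]
    have hsub : u'.supp ⊆ u.supp := by
      intro t ht
      rw [JT.mem_supp] at ht ⊢
      intro h
      apply ht
      rw [hu'_apply]
      split_ifs
      · rfl
      · exact h
    have hlt : u'.supp.card < n := by
      rw [← hn]
      apply Finset.card_lt_card
      refine (Finset.ssubset_iff_of_subset hsub).mpr ⟨v, JT.mem_supp.mpr hv, ?_⟩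
      rw [JT.mem_supp]
      exact fun h => h hu'v
    have hu'A : ∀ t ∈ A, u' t = 0 := by
      intro t ht
      rw [hu'_apply]
      split_ifs
      · rfl
      · exact hu t ht
    obtain ⟨w₁', w₂', hw', hsupp', hn1', hn2'⟩ := ih _ hlt u' hu'A rfl
    have h1 : ∀ t, d <+: t → (x₀ + θ • w₁') t = 0 ∧ (x₀ - θ • w₂') t = 0 := by
      intro t hdt
      have htA : t ∉ A := fun h => hdA (hA t h d hdt)
      have hu't : u' t = 0 := by rw [hu'_apply, if_pos hdt]
      obtain ⟨e1, e2⟩ := hsupp' t hu't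
      constructor
      · rw [JT.add_apply, JT.smul_apply, hx t htA, e1]; ring
      · rw [JT.sub_apply, JT.smul_apply, hx t htA, e2]; ring
    have h2 : ∀ r, r <+: d → r ≠ d → (x₀ + θ • w₁') r = (x₀ - θ • w₂') r := by
      intro r hrd hne'
      have hrA := hproper r hrd hne'
      obtain ⟨e1, e2⟩ := hsupp' r (hu'A r hrA)
      rw [JT.add_apply, JT.smul_apply, JT.sub_apply, JT.smul_apply, e1, e2]; ring
    have h3 : ∀ t, ¬ d <+: t → ud t = 0 := by
      intro t ht
      rw [hud_apply, if_neg ht]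
    obtain ⟨w₁'', w₂'', hw'', hsupp'', hn1'', hn2''⟩ :=
      oneSub d (x₀ + θ • w₁') (x₀ - θ • w₂') ud θ hθ h1 h2 h3
    refine ⟨w₁' + w₁'', w₂' + w₂'', ?_, ?_, ?_, ?_⟩
    · rw [← hsum, ← hw', ← hw'']; abel
    · intro t ht
      have e1 : u' t = 0 := by
        rw [hu'_apply]; split_ifs
        · rfl
        · exact ht
      have e2 : ud t = 0 := by
        rw [hud_apply]; split_ifs
        · exact ht
        · rfl
      obtain ⟨a1, a2⟩ := hsupp' t e1
      obtain ⟨b1, b2⟩ := hsupp'' t e2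
      constructor
      · rw [JT.add_apply, a1, b1]; ring
      · rw [JT.add_apply, a2, b2]; ring
    · have e : x₀ + θ • (w₁' + w₁'') = x₀ + θ • w₁' + θ • w₁'' := by
        rw [smul_add]; abel
      rw [e]
      have hθ2 : 0 ≤ 3 * θ ^ 2 := by positivity
      nlinarith [mul_le_mul_of_nonneg_left hnorm hθ2]
    · have e : x₀ - θ • (w₂' + w₂'') = x₀ - θ • w₂' - θ • w₂'' := by
        rw [smul_add]; abel
      rw [e]
      have hθ2 : 0 ≤ 3 * θ ^ 2 := by positivity
      nlinarith [mul_le_mul_of_nonneg_left hnorm hθ2]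

end Vale.Agent.Lib.P069
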