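import Vale.Agent.Lib.P069.JTApprox
import Vale.Agent.Lib.P069.JTKey
import Vale.Agent.Lib.P069.Defs

namespace Vale.Agent.Lib.P069

open Finset

/-- The functionals vanishing at the unit vectors of the nodes in `A`. -/
def annih (A : Finset Node) : Submodule ℝ (JT →L[ℝ] ℝ) where
  carrier := {g | ∀ a ∈ A, g (JT.single a) = 0}
  add_mem' := fun {g h} hg hh a ha => by
    show g (JT.single a) + h (JT.single a) = 0
    rw [hg a ha, hh a ha, add_zero]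
  zero_mem' := fun a _ => rfl
  smul_mem' := fun c g hg a ha => by
    show c • g (JT.single a) = 0
    rw [hg a ha, smul_zero]

theorem mem_annih {A : Finset Node} {g : JT →L[ℝ] ℝ} :
    g ∈ annih A ↔ ∀ a ∈ A, g (JT.single a) = 0 := Iff.rfl

/-- Evaluation at the unit vectors of the nodes of `A`, as a linear map. -/
noncomputable def evalOn (A : Finset Node) : (JT →L[ℝ] ℝ) →ₗ[ℝ] (A → ℝ) where
  toFun := fun g a => g (JT.single a.1)
  map_add' := fun _ _ => rfl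
  map_smul' := fun _ _ => rfl

theorem ker_evalOn (A : Finset Node) : LinearMap.ker (evalOn A) = annih A := by
  ext g
  rw [LinearMap.mem_ker, mem_annih]
  constructor
  · intro h a ha
    exact congrFun h ⟨a, ha⟩
  · intro h
    funext a
    exact h a.1 a.2

theorem isCof_annih (A : Finset Node) : IsCof (annih A) := by
  refine ⟨?_, ?_⟩
  · have e : ((annih A : Submodule ℝ (JT →L[ℝ] ℝ)) : Set (JT →L[ℝ] ℝ))
        = ⋂ a ∈ A, {g : JT →L[ℝ] ℝ | (ContinuousLinearMap.apply ℝ ℝ (JT.single a)) g = 0} := by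
      ext g
      simp only [SetLike.mem_coe, mem_annih, Set.mem_iInter, Set.mem_ofPred_eq,
        ContinuousLinearMap.apply_apply]
    rw [e]
    refine isClosed_biInter (fun a _ => ?_)
    exact isClosed_eq (ContinuousLinearMap.apply ℝ ℝ (JT.single a)).continuous continuous_const
  · rw [← ker_evalOn]
    exact finiteDimensional_quotient_ker (evalOn A)

/-- A finite coordinate expansion over `A` only reads the coordinates in `A`. -/
theorem sum_smul_coord_apply (A : Finset Node) (c : Node → ℝ) (x : JT) :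
    (∑ a ∈ A, c a • JT.coord a) x = ∑ a ∈ A, c a * x a := by
  rw [_root_.sum_apply]
  refine Finset.sum_congr rfl (fun a _ => ?_)
  rw [_root_.smul_apply, JT.coord_apply, smul_eq_mul]

/-- A functional of the annihilator of `A` vanishes at vectors supported in `A`. -/
theorem apply_eq_zero_of_mem_annih {A : Finset Node} {g : JT →L[ℝ] ℝ} (hg : g ∈ annih A)
    (x : JT) (hx : ∀ t, t ∉ A → x t = 0) : g x = 0 := by
  rw [JT.apply_eq_sum g x]
  refine Finset.sum_eq_zero (fun t _ => ?_)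
  by_cases ht : t ∈ A
  · rw [hg t ht, mul_zero]
  · rw [hx t ht, zero_mul]

/-- Polynomial inequality used at the end of the midpoint estimate. -/
theorem amuc_poly {s : ℝ} (hs0 : 0 < s) (hs1 : s ≤ 1) :
    (1 + s ^ 2 / 40) ^ 2 * (1 + s ^ 2 / 12)
      ≤ (1 + s ^ 2 / 12 - 13 / 2 * (s ^ 2 / 1000)) ^ 2 := by
  have hq0 : 0 < s ^ 2 := by positivity
  have hq1 : s ^ 2 ≤ 1 := by nlinarith
  generalize s ^ 2 = q at hq0 hq1
  nlinarith [mul_nonneg hq0.le hq0.le, mul_nonneg hq0.le (sub_nonneg.2 hq1),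
    mul_nonneg (mul_nonneg hq0.le hq0.le) (sub_nonneg.2 hq1)]

/-- Evaluation identity for the two test vectors. -/
theorem amuc_eval {E : Type*} [NormedAddCommGroup E] [NormedSpace ℝ E] (f g : E →L[ℝ] ℝ)
    (x₀ w₁ w₂ : E) (s θ : ℝ) :
    (f + s • g) (x₀ + θ • w₁) + (f - s • g) (x₀ - θ • w₂)
      = 2 * f x₀ + f (θ • w₁) - f (θ • w₂) + s * θ * g (w₁ + w₂) := by
  have e1 : (f + s • g) (x₀ + θ • w₁) = f (x₀ + θ • w₁) + s * g (x₀ + θ • w₁) := rfl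
  have e2 : (f - s • g) (x₀ - θ • w₂) = f (x₀ - θ • w₂) - s * g (x₀ - θ • w₂) := rfl
  rw [e1, e2, map_add, map_add, map_sub, map_sub, map_add, map_smul g θ w₁, map_smul g θ w₂,
    smul_eq_mul, smul_eq_mul]
  ring

/-- Real arithmetic at the end of the midpoint estimate. -/
theorem amuc_final {s η R Mx a b₁ b₂ c V₁ V₂ : ℝ} (hs0 : 0 < s) (hs1 : s ≤ 1)
    (hη : η = s ^ 2 / 1000) (hR0 : 0 < R) (hR2 : R ^ 2 = 1 + s ^ 2 / 12)
    (ha : 1 - 3 * η < a) (hb₁ : |b₁| ≤ 3 * η) (hb₂ : |b₂| ≤ 3 * η) (hc : 1 - η < c)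
    (hV₁ : V₁ ≤ Mx * R) (hV₂ : V₂ ≤ Mx * R)
    (hsum : V₁ + V₂ = 2 * a + b₁ - b₂ + s * (s / 6) * c) :
    1 + s ^ 2 / 40 ≤ Mx := by
  have hηpos : 0 < η := by rw [hη]; positivity
  have hη1 : η ≤ 1 / 1000 := by rw [hη]; nlinarith
  have h1 := abs_le.1 hb₁
  have h2 := abs_le.1 hb₂
  have h3 : s * (s / 6) = s ^ 2 / 6 := by ring
  have h4 : s ^ 2 / 6 * (1 - η) ≤ s * (s / 6) * c := by
    rw [h3]
    exact mul_le_mul_of_nonneg_left hc.le (by positivity)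
  have h5 : s ^ 2 / 6 * η ≤ η := by nlinarith
  have hlow : 2 + s ^ 2 / 6 - 13 * η ≤ 2 * (Mx * R) := by
    nlinarith [h1.1, h2.2]
  by_contra hcon
  push Not at hcon
  have hK : (1 + s ^ 2 / 40) * R ≤ 1 + s ^ 2 / 12 - 13 / 2 * η := by
    have hpoly := amuc_poly hs0 hs1
    have hKpos : 0 ≤ 1 + s ^ 2 / 12 - 13 / 2 * η := by nlinarith [sq_nonneg s]
    refine le_of_sq_le_sq ?_ hKpos
    rw [mul_pow, hR2, hη]
    exact hpoly
  have h7 : Mx * R < (1 + s ^ 2 / 40) * R := mul_lt_mul_of_pos_right hcon hR0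
  linarith

/-- Lower bound of `f` at the part of a norming vector inside `A`. -/
theorem amuc_norming {η : ℝ} (hη : 0 < η) (f : JT →L[ℝ] ℝ) (hf : ‖f‖ = 1)
    (A : Finset Node) (hA : ∀ t ∈ A, ∀ r, r <+: t → r ∈ A)
    (happ : ‖f - ∑ a ∈ A, f (JT.single a) • JT.coord a‖ ≤ η) :
    ∃ x₀ : JT, ‖x₀‖ ≤ 1 ∧ (∀ t, t ∉ A → x₀ t = 0) ∧ 1 - 3 * η < f x₀ := by
  classical
  obtain ⟨x₁, hx₁n, hx₁⟩ := l2_exists_lt_apply f (r := 1 - η) (by rw [hf]; linarith)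
  refine ⟨JT.restrict (fun t => t ∈ A) x₁, ?_, ?_, ?_⟩
  · exact (JT.norm_restrict_le _
      (fun S hS => hS.filter_down _ (fun r t ht hrt => hA t ht r hrt)) x₁).trans hx₁n
  · intro t ht
    rw [JT.restrict_apply, if_neg ht]
  · have hn : ‖JT.restrict (fun t => t ∈ A) x₁‖ ≤ 1 :=
      (JT.norm_restrict_le _
        (fun S hS => hS.filter_down _ (fun r t ht hrt => hA t ht r hrt)) x₁).trans hx₁n
    obtain ⟨x₀, hx₀⟩ : ∃ x₀ : JT, x₀ = JT.restrict (fun t => t ∈ A) x₁ := ⟨_, rfl⟩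
    rw [← hx₀] at hn ⊢
    obtain ⟨fA, hfA⟩ : ∃ fA : JT →L[ℝ] ℝ, fA = ∑ a ∈ A, f (JT.single a) • JT.coord a :=
      ⟨_, rfl⟩
    rw [← hfA] at happ
    have hfAx : fA x₀ = fA x₁ := by
      rw [hfA, sum_smul_coord_apply, sum_smul_coord_apply]
      refine Finset.sum_congr rfl (fun a ha => ?_)
      rw [hx₀, JT.restrict_apply, if_pos ha]
    have hdiff : ∀ y : JT, |f y - fA y| ≤ η * ‖y‖ := by
      intro y
      have h1 := (f - fA).le_opNorm y
      rw [Real.norm_eq_abs] at h1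
      exact h1.trans (mul_le_mul_of_nonneg_right happ (norm_nonneg y))
    have h1 := abs_le.1 (hdiff x₀)
    have h2 := abs_le.1 (hdiff x₁)
    have h3 : η * ‖x₀‖ ≤ η := by nlinarith
    have h4 : η * ‖x₁‖ ≤ η := by nlinarith
    linarith [h1.1, h2.2]

/-- A norming vector of an annihilator functional can be taken off `A`. -/
theorem amuc_norming_annih {η : ℝ} (hη : 0 < η) (A : Finset Node)
    (hA : ∀ t ∈ A, ∀ r, r <+: t → r ∈ A) (g : JT →L[ℝ] ℝ) (hg : g ∈ annih A)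
    (hgn : ‖g‖ = 1) :
    ∃ u : JT, ‖u‖ ≤ 1 ∧ (∀ t ∈ A, u t = 0) ∧ 1 - η < g u := by
  classical
  obtain ⟨u₁, hu₁n, hu₁⟩ := l2_exists_lt_apply g (r := 1 - η) (by rw [hgn]; linarith)
  refine ⟨JT.restrict (fun t => ¬ t ∈ A) u₁, ?_, ?_, ?_⟩
  · exact (JT.norm_restrict_le _
      (fun S hS => hS.filter_not_of_down _ (fun r t ht hrt => hA t ht r hrt)) u₁).trans hu₁n
  · intro t ht
    rw [JT.restrict_apply, if_neg (not_not.2 ht)]
  · have e : u₁ = JT.restrict (fun t => t ∈ A) u₁ + JT.restrict (fun t => ¬ t ∈ A) u₁ :=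
      (JT.restrict_add_restrict_not (fun t => t ∈ A) u₁).symm
    have h0 : g (JT.restrict (fun t => t ∈ A) u₁) = 0 := by
      refine apply_eq_zero_of_mem_annih hg _ (fun t ht => ?_)
      rw [JT.restrict_apply, if_neg ht]
    have h1 : g u₁ = g (JT.restrict (fun t => ¬ t ∈ A) u₁) := by
      conv_lhs => rw [e]
      rw [map_add, h0, zero_add]
    linarith

/-- The midpoint estimate at the scale `s ≤ 1`. -/
theorem amuc_core {s : ℝ} (hs0 : 0 < s) (hs1 : s ≤ 1) (f : JT →L[ℝ] ℝ) (hf : ‖f‖ = 1)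
    (A : Finset Node) (hA : ∀ t ∈ A, ∀ r, r <+: t → r ∈ A)
    (happ : ‖f - ∑ a ∈ A, f (JT.single a) • JT.coord a‖ ≤ s ^ 2 / 1000)
    (g : JT →L[ℝ] ℝ) (hg : g ∈ annih A) (hgn : ‖g‖ = 1) :
    1 + s ^ 2 / 40 ≤ max ‖f + s • g‖ ‖f - s • g‖ := by
  obtain ⟨η, hη⟩ : ∃ η : ℝ, η = s ^ 2 / 1000 := ⟨_, rfl⟩
  rw [← hη] at happ
  have hηpos : 0 < η := by rw [hη]; positivity
  have hη1 : η ≤ 1 / 1000 := by rw [hη]; nlinarith
  obtain ⟨x₀, hx₀n, hx₀A, hfx₀⟩ := amuc_norming hηpos f hf A hA happ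
  obtain ⟨u, hun, huA, hgu⟩ := amuc_norming_annih hηpos A hA g hg hgn
  obtain ⟨fA, hfA⟩ : ∃ fA : JT →L[ℝ] ℝ, fA = ∑ a ∈ A, f (JT.single a) • JT.coord a :=
    ⟨_, rfl⟩
  rw [← hfA] at happ
  have hdiff : ∀ y : JT, |f y - fA y| ≤ η * ‖y‖ := by
    intro y
    have h1 := (f - fA).le_opNorm y
    rw [Real.norm_eq_abs] at h1
    exact h1.trans (mul_le_mul_of_nonneg_right happ (norm_nonneg y))
  -- the key estimate
  have hθ0 : 0 ≤ s / 6 := by positivity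
  obtain ⟨w₁, w₂, hw, hwz, hn₁, hn₂⟩ := key_estimate A hA x₀ u hx₀A huA (s / 6) hθ0
  obtain ⟨R, hR⟩ : ∃ R : ℝ, R = Real.sqrt (1 + s ^ 2 / 12) := ⟨_, rfl⟩
  have hR0 : 0 < R := by rw [hR]; exact Real.sqrt_pos.2 (by positivity)
  have hR2 : R ^ 2 = 1 + s ^ 2 / 12 := by rw [hR]; exact Real.sq_sqrt (by positivity)
  have hR3 : R ≤ 2 := by
    have : R ^ 2 ≤ 2 ^ 2 := by rw [hR2]; nlinarith
    exact le_of_sq_le_sq this (by norm_num)
  have hbound : ‖x₀‖ ^ 2 + 3 * (s / 6) ^ 2 * ‖u‖ ^ 2 ≤ 1 + s ^ 2 / 12 := by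
    have h1 : ‖x₀‖ ^ 2 ≤ 1 := by nlinarith [norm_nonneg x₀]
    have h2 : ‖u‖ ^ 2 ≤ 1 := by nlinarith [norm_nonneg u]
    have h3 : 3 * (s / 6) ^ 2 = s ^ 2 / 12 := by ring
    rw [h3]
    nlinarith [sq_nonneg s]
  have hN₁ : ‖x₀ + (s / 6) • w₁‖ ≤ R := by
    have : ‖x₀ + (s / 6) • w₁‖ ^ 2 ≤ R ^ 2 := by rw [hR2]; exact hn₁.trans hbound
    exact le_of_sq_le_sq this hR0.le
  have hN₂ : ‖x₀ - (s / 6) • w₂‖ ≤ R := by
    have : ‖x₀ - (s / 6) • w₂‖ ^ 2 ≤ R ^ 2 := by rw [hR2]; exact hn₂.trans hbound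
    exact le_of_sq_le_sq this hR0.le
  have hθw₁ : ‖(s / 6) • w₁‖ ≤ 3 := by
    have e : (s / 6) • w₁ = (x₀ + (s / 6) • w₁) - x₀ := by abel
    rw [e]
    exact (norm_sub_le _ _).trans (by linarith)
  have hθw₂ : ‖(s / 6) • w₂‖ ≤ 3 := by
    have e : (s / 6) • w₂ = x₀ - (x₀ - (s / 6) • w₂) := by abel
    rw [e]
    exact (norm_sub_le _ _).trans (by linarith)
  have hfAw : ∀ w : JT, (∀ t ∈ A, w t = 0) → fA ((s / 6) • w) = 0 := by
    intro w hwA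
    rw [hfA, sum_smul_coord_apply]
    refine Finset.sum_eq_zero (fun a ha => ?_)
    rw [JT.smul_apply, hwA a ha, mul_zero, mul_zero]
  have hfw₁ : |f ((s / 6) • w₁)| ≤ 3 * η := by
    have h1 := hdiff ((s / 6) • w₁)
    rw [hfAw w₁ (fun t ht => (hwz t (huA t ht)).1), sub_zero] at h1
    exact h1.trans (by nlinarith)
  have hfw₂ : |f ((s / 6) • w₂)| ≤ 3 * η := by
    have h1 := hdiff ((s / 6) • w₂)
    rw [hfAw w₂ (fun t ht => (hwz t (huA t ht)).2), sub_zero] at h1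
    exact h1.trans (by nlinarith)
  obtain ⟨Mx, hMx⟩ : ∃ Mx : ℝ, Mx = max ‖f + s • g‖ ‖f - s • g‖ := ⟨_, rfl⟩
  rw [← hMx]
  have hMx0 : 0 ≤ Mx := by rw [hMx]; exact (norm_nonneg _).trans (le_max_left _ _)
  have hA₁ : (f + s • g) (x₀ + (s / 6) • w₁) ≤ Mx * R := by
    have h1 := (f + s • g).le_opNorm (x₀ + (s / 6) • w₁)
    rw [Real.norm_eq_abs] at h1
    have h2 : ‖f + s • g‖ * ‖x₀ + (s / 6) • w₁‖ ≤ Mx * R :=
      mul_le_mul (by rw [hMx]; exact le_max_left _ _) hN₁ (norm_nonneg _) hMx0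
    exact (le_abs_self _).trans (h1.trans h2)
  have hA₂ : (f - s • g) (x₀ - (s / 6) • w₂) ≤ Mx * R := by
    have h1 := (f - s • g).le_opNorm (x₀ - (s / 6) • w₂)
    rw [Real.norm_eq_abs] at h1
    have h2 : ‖f - s • g‖ * ‖x₀ - (s / 6) • w₂‖ ≤ Mx * R :=
      mul_le_mul (by rw [hMx]; exact le_max_right _ _) hN₂ (norm_nonneg _) hMx0
    exact (le_abs_self _).trans (h1.trans h2)
  have hsum := amuc_eval f g x₀ w₁ w₂ s (s / 6)
  rw [hw] at hsum
  exact amuc_final hs0 hs1 hη hR0 hR2 hfx₀ hfw₁ hfw₂ hgu hA₁ hA₂ hsum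

/-- The dual norm of the James tree space over the forest is asymptotically midpoint
uniformly convex. -/
theorem isAMUC_dual : IsAMUC (normSeminorm ℝ (JT →L[ℝ] ℝ)) := by
  intro t ht
  have hs0 : 0 < min t 1 := lt_min ht one_pos
  have hs1 : min t 1 ≤ 1 := min_le_right _ _
  have hst : min t 1 ≤ t := min_le_left _ _
  refine ⟨(min t 1) ^ 2 / 40, by positivity, ?_⟩
  intro f hf
  have hf' : ‖f‖ = 1 := hf
  obtain ⟨A, hA, happ⟩ := JT.exists_finite_approx f (η := (min t 1) ^ 2 / 1000) (by positivity)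
  refine ⟨annih A, isCof_annih A, ?_⟩
  intro g hg hgn
  have hgn' : ‖g‖ = 1 := hgn
  have hcore := amuc_core hs0 hs1 f hf' A hA happ g hg hgn'
  exact max_mono_scale (normSeminorm ℝ (JT →L[ℝ] ℝ)) hf hs0 hst (by positivity) hcore

end Vale.Agent.Lib.P069
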