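import Vale.Agent.Lib.P069.JTBasic

namespace Vale.Agent.Lib.P069

open Finset

/-- Sum of `y` over the nodes between `r` and `c` (initial parts of `c` extending `r`). -/
def tailSum (y : Node → ℝ) (c r : Node) : ℝ :=
  ∑ t ∈ c.inits.toFinset.filter (fun t => r <+: t), y t

/-- The sign condition at an attaching node `c`, for the sign `s` and the scale `τ`. -/
def SignCond (y : Node → ℝ) (c : Node) (s τ : ℝ) : Prop :=
  ∀ r, r <+: c → 0 < s * tailSum y c r →
    (|tailSum y c r| ≤ τ ∨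
      ∃ r', r <+: r' ∧ r' ≠ r ∧ r' <+: c ∧
        2 * |tailSum y c r| * τ - 2 * τ ^ 2 ≤
          2 * tailSum y c r' ^ 2 - 2 * tailSum y c r * tailSum y c r')

/-- One of the two signs always satisfies the sign condition. -/
theorem signCond_or (y : Node → ℝ) (c : Node) (τ : ℝ) :
    SignCond y c 1 τ ∨ SignCond y c (-1) τ := by
  by_contra hcon
  rw [not_or] at hcon
  obtain ⟨h1, h2⟩ := hcon
  unfold SignCond at h1 h2
  simp only [not_forall, not_or, not_exists, not_and, not_le] at h1 h2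
  obtain ⟨r₁, hr₁, hpos₁, hbig₁, hno₁⟩ := h1
  obtain ⟨r₂, hr₂, hpos₂, hbig₂, hno₂⟩ := h2
  have ha₁ : 0 < tailSum y c r₁ := by linarith
  have ha₂ : tailSum y c r₂ < 0 := by linarith
  have hne : r₁ ≠ r₂ := by
    rintro rfl
    linarith
  rw [abs_of_pos ha₁] at hbig₁ hno₁
  rw [abs_of_neg ha₂] at hbig₂ hno₂
  rcases List.prefix_or_prefix_of_prefix hr₁ hr₂ with h | h
  · have := hno₁ r₂ h (Ne.symm hne) hr₂
    nlinarith
  · have := hno₂ r₁ h hne hr₁
    nlinarith

end Vale.Agent.Lib.P069
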