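import Vale.Agent.Lib.P069.JTBasic

namespace Vale.Agent.Lib.P069

open Finset

/-- Sum of a function along all initial parts of a node. -/
def pathSum (u : Node → ℝ) (v : Node) : ℝ := ∑ r ∈ v.inits.toFinset, u r

/-- Positive part along paths. -/
noncomputable def posFn (u : Node → ℝ) : Node → ℝ :=
  fun v => max (pathSum u v) 0 - max (pathSum u v - u v) 0

/-- Negative part along paths. -/
noncomputable def negFn (u : Node → ℝ) : Node → ℝ := fun v => u v - posFn u v

theorem posFn_eq_zero {u : Node → ℝ} {v : Node} (h : u v = 0) : posFn u v = 0 := by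
  simp [posFn, h]

theorem negFn_eq_zero {u : Node → ℝ} {v : Node} (h : u v = 0) : negFn u v = 0 := by
  simp [negFn, posFn, h]

/-- A nonempty segment has a least element. -/
theorem IsSeg.exists_least {S : Finset Node} (hS : IsSeg S) (hne : S.Nonempty) :
    ∃ a ∈ S, ∀ t ∈ S, a <+: t := by
  obtain ⟨a, ha, hmin⟩ := Finset.exists_min_image S List.length hne
  refine ⟨a, ha, fun t ht => ?_⟩
  rcases hS.1 a ha t ht with h | h
  · exact h
  · rw [h.eq_of_length_le (hmin t ht)]

/-- A nonempty segment has a greatest element. -/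
theorem IsSeg.jtpos_exists_greatest {S : Finset Node} (hS : IsSeg S) (hne : S.Nonempty) :
    ∃ b ∈ S, ∀ t ∈ S, t <+: b := by
  obtain ⟨b, hb, hmax⟩ := Finset.exists_max_image S List.length hne
  refine ⟨b, hb, fun t ht => ?_⟩
  rcases hS.1 t ht b hb with h | h
  · exact h
  · rw [h.eq_of_length_le (hmax t ht)]

/-- Adding one more entry to a node adds one term to the path sum. -/
theorem jtpos_pathSum_concat (u : Node → ℝ) (v : Node) (k : ℕ) :
    pathSum u (v ++ [k]) = pathSum u v + u (v ++ [k]) := by
  unfold pathSum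
  have h1 : (v ++ [k]).inits = v.inits ++ [v ++ [k]] := by
    rw [List.inits_append]
    rfl
  rw [h1, List.toFinset_append, List.toFinset_cons, List.toFinset_nil, insert_empty_eq,
    Finset.sum_union, Finset.sum_singleton]
  rw [Finset.disjoint_singleton_right, List.mem_toFinset, List.mem_inits]
  intro h
  have := h.length_le
  simp at this

/-- A segment with least element `a` and greatest element `a ++ e` is the path from `a`
to `a ++ e`. -/
theorem IsSeg.jtpos_eq_image {S : Finset Node} (hS : IsSeg S) {a e : Node} (ha : a ∈ S)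
    (hb : a ++ e ∈ S) (hleast : ∀ t ∈ S, a <+: t) (hgreat : ∀ t ∈ S, t <+: a ++ e) :
    S = (range (e.length + 1)).image (fun i => a ++ e.take i) := by
  ext t
  rw [Finset.mem_image]
  constructor
  · intro ht
    obtain ⟨t', rfl⟩ := hleast t ht
    have h1 : t' <+: e := (List.prefix_append_right_inj a).mp (hgreat _ ht)
    refine ⟨t'.length, ?_, ?_⟩
    · rw [Finset.mem_range]
      have := h1.length_le
      omega
    · rw [← List.prefix_iff_eq_take.mp h1]
  · rintro ⟨i, -, rfl⟩
    exact hS.2.1 a ha (a ++ e) hb _ (List.prefix_append a _)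
      ((List.prefix_append_right_inj a).mpr (List.take_prefix i e))

theorem jtpos_injOn (a e : Node) :
    Set.InjOn (fun i => a ++ e.take i) (↑(range (e.length + 1)) : Set ℕ) := by
  intro i hi j hj hij
  rw [Finset.coe_range, Set.mem_Iio] at hi hj
  have h1 : e.take i = e.take j := List.append_cancel_left hij
  have h2 := congrArg List.length h1
  rw [List.length_take, List.length_take] at h2
  omega

theorem IsSeg.jtpos_segSum_eq {S : Finset Node} (hS : IsSeg S) {a e : Node} (ha : a ∈ S)
    (hb : a ++ e ∈ S) (hleast : ∀ t ∈ S, a <+: t) (hgreat : ∀ t ∈ S, t <+: a ++ e)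
    (f : Node → ℝ) :
    segSum f S = ∑ i ∈ range (e.length + 1), f (a ++ e.take i) := by
  unfold segSum
  conv_lhs => rw [hS.jtpos_eq_image ha hb hleast hgreat]
  exact Finset.sum_image (jtpos_injOn a e)

/-- Telescoping along a path. -/
theorem jtpos_tele (u : Node → ℝ) (h : ℝ → ℝ) (a e : Node) :
    ∑ i ∈ range (e.length + 1),
        (h (pathSum u (a ++ e.take i)) - h (pathSum u (a ++ e.take i) - u (a ++ e.take i)))
      = h (pathSum u (a ++ e)) - h (pathSum u a - u a) := by
  rw [Finset.sum_range_succ']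
  have h1 : ∀ i ∈ range e.length,
      h (pathSum u (a ++ e.take (i + 1)))
          - h (pathSum u (a ++ e.take (i + 1)) - u (a ++ e.take (i + 1)))
        = h (pathSum u (a ++ e.take (i + 1))) - h (pathSum u (a ++ e.take i)) := by
    intro i hi
    rw [Finset.mem_range] at hi
    have h2 : a ++ e.take (i + 1) = (a ++ e.take i) ++ [e[i]] := by
      rw [List.take_succ_eq_append_getElem hi, List.append_assoc]
    have h3 := jtpos_pathSum_concat u (a ++ e.take i) e[i]
    rw [← h2] at h3
    rw [h3]
    congr 2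
    ring
  rw [Finset.sum_congr rfl h1,
    Finset.sum_range_sub (fun i => h (pathSum u (a ++ e.take i))) e.length]
  simp only [List.take_length, List.take_zero, List.append_nil]
  ring

theorem IsSeg.jtpos_segSum_tele {S : Finset Node} (hS : IsSeg S) {a e : Node} (ha : a ∈ S)
    (hb : a ++ e ∈ S) (hleast : ∀ t ∈ S, a <+: t) (hgreat : ∀ t ∈ S, t <+: a ++ e)
    (u : Node → ℝ) (h : ℝ → ℝ) :
    segSum (fun v => h (pathSum u v) - h (pathSum u v - u v)) S
      = h (pathSum u (a ++ e)) - h (pathSum u a - u a) := by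
  rw [hS.jtpos_segSum_eq ha hb hleast hgreat]
  exact jtpos_tele u h a e

theorem IsSeg.jtpos_segSum_self {S : Finset Node} (hS : IsSeg S) {a e : Node} (ha : a ∈ S)
    (hb : a ++ e ∈ S) (hleast : ∀ t ∈ S, a <+: t) (hgreat : ∀ t ∈ S, t <+: a ++ e)
    (u : Node → ℝ) :
    segSum u S = pathSum u (a ++ e) - (pathSum u a - u a) := by
  have h1 := hS.jtpos_segSum_tele ha hb hleast hgreat u (fun x => x)
  have h2 : (fun v => pathSum u v - (pathSum u v - u v)) = u := by
    funext v
    ring
  rw [h2] at h1
  exact h1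

theorem IsSeg.jtpos_segSum_posFn {S : Finset Node} (hS : IsSeg S) {a e : Node} (ha : a ∈ S)
    (hb : a ++ e ∈ S) (hleast : ∀ t ∈ S, a <+: t) (hgreat : ∀ t ∈ S, t <+: a ++ e)
    (u : Node → ℝ) :
    segSum (posFn u) S = max (pathSum u (a ++ e)) 0 - max (pathSum u a - u a) 0 :=
  hS.jtpos_segSum_tele ha hb hleast hgreat u (fun x => max x 0)

theorem jtpos_segSum_negFn (u : Node → ℝ) (S : Finset Node) :
    segSum (negFn u) S = segSum u S - segSum (posFn u) S := by
  unfold segSum negFn
  rw [Finset.sum_sub_distrib]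

theorem jtpos_abs_aux (x y : ℝ) : |(x - y) - (max x 0 - max y 0)| ≤ |x - y| := by
  have h1 := le_abs_self (x - y)
  have h2 := neg_abs_le (x - y)
  rcases le_total x 0 with hx | hx <;> rcases le_total y 0 with hy | hy
  · rw [max_eq_right hx, max_eq_right hy]
    simp
  · rw [max_eq_right hx, max_eq_left hy, abs_le]
    constructor <;> linarith
  · rw [max_eq_left hx, max_eq_right hy, abs_le]
    constructor <;> linarith
  · rw [max_eq_left hx, max_eq_left hy]
    simp

theorem abs_segSum_posFn_le (u : Node → ℝ) {S : Finset Node} (hS : IsSeg S) :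
    |segSum (posFn u) S| ≤ |segSum u S| := by
  rcases S.eq_empty_or_nonempty with rfl | hne
  · simp [segSum]
  · obtain ⟨a, ha, hleast⟩ := hS.exists_least hne
    obtain ⟨b, hb, hgreat⟩ := hS.jtpos_exists_greatest hne
    obtain ⟨e, rfl⟩ := hleast b hb
    rw [hS.jtpos_segSum_posFn ha hb hleast hgreat u, hS.jtpos_segSum_self ha hb hleast hgreat u]
    exact abs_max_sub_max_le_abs _ _ _

theorem abs_segSum_negFn_le (u : Node → ℝ) {S : Finset Node} (hS : IsSeg S) :
    |segSum (negFn u) S| ≤ |segSum u S| := by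
  rcases S.eq_empty_or_nonempty with rfl | hne
  · simp [segSum]
  · obtain ⟨a, ha, hleast⟩ := hS.exists_least hne
    obtain ⟨b, hb, hgreat⟩ := hS.jtpos_exists_greatest hne
    obtain ⟨e, rfl⟩ := hleast b hb
    rw [jtpos_segSum_negFn, hS.jtpos_segSum_posFn ha hb hleast hgreat u,
      hS.jtpos_segSum_self ha hb hleast hgreat u]
    exact jtpos_abs_aux _ _

theorem jtpos_pathSum_of_least (u : Node → ℝ) {a : Node}
    (h0 : ∀ r, r <+: a → r ≠ a → u r = 0) : pathSum u a - u a = 0 := by
  unfold pathSum
  rw [Finset.sum_eq_single a]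
  · ring
  · intro r hr hne
    rw [List.mem_toFinset, List.mem_inits] at hr
    exact h0 r hr hne
  · intro hna
    exact absurd (List.mem_toFinset.mpr ((List.mem_inits a a).mpr (List.prefix_refl a))) hna

theorem segSum_posFn_of_least (u : Node → ℝ) {S : Finset Node} (hS : IsSeg S) {a : Node}
    (ha : a ∈ S) (hleast : ∀ t ∈ S, a <+: t) (h0 : ∀ r, r <+: a → r ≠ a → u r = 0) :
    segSum (posFn u) S = max (segSum u S) 0 := by
  obtain ⟨b, hb, hgreat⟩ := hS.jtpos_exists_greatest ⟨a, ha⟩
  obtain ⟨e, rfl⟩ := hleast b hb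
  rw [hS.jtpos_segSum_posFn ha hb hleast hgreat u, hS.jtpos_segSum_self ha hb hleast hgreat u,
    jtpos_pathSum_of_least u h0]
  simp

theorem segSum_negFn_of_least (u : Node → ℝ) {S : Finset Node} (hS : IsSeg S) {a : Node}
    (ha : a ∈ S) (hleast : ∀ t ∈ S, a <+: t) (h0 : ∀ r, r <+: a → r ≠ a → u r = 0) :
    segSum (negFn u) S = min (segSum u S) 0 := by
  rw [jtpos_segSum_negFn, segSum_posFn_of_least u hS ha hleast h0]
  have := min_add_max (segSum u S) 0
  linarith

theorem jtpos_val_le (l : List (Finset Node)) (hl : IsFam l) (f g : Node → ℝ)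
    (h : ∀ S, IsSeg S → |segSum f S| ≤ |segSum g S|) : val l f ≤ val l g := by
  unfold val
  refine List.sum_le_sum fun S hS => ?_
  exact sq_le_sq.mpr (h S (hl.1 S hS))

namespace JT

/-- Positive part of an element along paths. -/
noncomputable def pos (u : JT) : JT :=
  JT.of (Finsupp.onFinset u.supp (posFn ⇑u) (fun v hv => by
    by_contra h
    exact hv (posFn_eq_zero (by
      by_contra h'
      exact h (mem_supp.mpr h')))))

/-- Negative part of an element along paths. -/
noncomputable def neg' (u : JT) : JT := u - pos u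

theorem coe_pos (u : JT) : ⇑(pos u) = posFn ⇑u := rfl

theorem coe_neg' (u : JT) : ⇑(neg' u) = negFn ⇑u := by
  funext v
  simp [neg', negFn, coe_pos]

theorem pos_add_neg' (u : JT) : pos u + neg' u = u := by
  simp [neg']

theorem norm_pos_le (u : JT) : ‖pos u‖ ≤ ‖u‖ := by
  refine norm_le_of_forall fun l hl => ?_
  rw [coe_pos]
  exact (Real.sqrt_le_sqrt (jtpos_val_le l hl _ _ fun S hS => abs_segSum_posFn_le ⇑u hS)).trans
    (sqrt_val_le_norm hl u)

theorem norm_neg'_le (u : JT) : ‖neg' u‖ ≤ ‖u‖ := by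
  refine norm_le_of_forall fun l hl => ?_
  rw [coe_neg']
  exact (Real.sqrt_le_sqrt (jtpos_val_le l hl _ _ fun S hS => abs_segSum_negFn_le ⇑u hS)).trans
    (sqrt_val_le_norm hl u)

end JT

end Vale.Agent.Lib.P069
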