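import Vale.Agent.Lib.P069.JTOneSubFixed
import Vale.Agent.Lib.P069.JTPos

namespace Vale.Agent.Lib.P069

open Finset

theorem segSum_neg (x : Node → ℝ) (S : Finset Node) : segSum (-x) S = -segSum x S := by
  simp [segSum]

/-- The bound of `oneSub_fixed` with both scales equal to `θ ‖u‖`. -/
theorem oneSub_bound (c : Node) (k : ℕ) (y u p : JT) (θ : ℝ) (hθ : 0 ≤ θ)
    (hy : ∀ t, (c ++ [k]) <+: t → y t = 0)
    (h3 : ∀ t, ¬ (c ++ [k]) <+: t → u t = 0)
    (s : ℝ) (hs : s = 1 ∨ s = -1) (hα : SignCond y c s (θ * ‖u‖))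
    (hp0 : ∀ t, u t = 0 → p t = 0) (hpn : ‖p‖ ≤ θ * ‖u‖)
    (hps : ∀ S, IsSeg S → (c ++ [k]) ∈ S → (∀ t ∈ S, (c ++ [k]) <+: t) →
      0 ≤ s * segSum p S ∧ |segSum p S| ≤ θ * ‖u‖) :
    ‖y + p‖ ^ 2 ≤ ‖y‖ ^ 2 + 3 * θ ^ 2 * ‖u‖ ^ 2 := by
  have hτ : 0 ≤ θ * ‖u‖ := mul_nonneg hθ (norm_nonneg u)
  have h := oneSub_fixed c k y p s (θ * ‖u‖) (θ * ‖u‖) hs hτ hy
    (fun t ht => hp0 t (h3 t ht)) hpn hps hα
  calc ‖y + p‖ ^ 2 ≤ ‖y‖ ^ 2 + 2 * (θ * ‖u‖) ^ 2 + (θ * ‖u‖) ^ 2 := h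
    _ = ‖y‖ ^ 2 + 3 * θ ^ 2 * ‖u‖ ^ 2 := by ring

/-- Segment sums of the positive and negative parts over segments inside the subtree at `d`
that contain `d`. -/
theorem segSum_pos_neg'_of_subtree (d : Node) (u : JT) (h3 : ∀ t, ¬ d <+: t → u t = 0)
    (S : Finset Node) (hS : IsSeg S) (hd : d ∈ S) (hall : ∀ t ∈ S, d <+: t) :
    segSum (JT.pos u) S = max (segSum u S) 0 ∧ segSum (JT.neg' u) S = min (segSum u S) 0 := by
  have h0 : ∀ r, r <+: d → r ≠ d → u r = 0 := by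
    intro r hr hne
    apply h3
    intro hdr
    exact hne (hr.eq_of_length_le hdr.length_le)
  constructor
  · rw [JT.coe_pos]
    exact segSum_posFn_of_least u hS hd hall h0
  · rw [JT.coe_neg']
    exact segSum_negFn_of_least u hS hd hall h0

/-- One-subtree step: a perturbation `u` supported on the subtree at `d` splits as `w₁ + w₂`
so that adding `θ w₁` to `y₁` and subtracting `θ w₂` from `y₂` costs at most
`3 θ² ‖u‖²` in the squared norm. -/
theorem oneSub (d : Node) (y₁ y₂ u : JT) (θ : ℝ) (hθ : 0 ≤ θ)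
    (h1 : ∀ t, d <+: t → y₁ t = 0 ∧ y₂ t = 0)
    (h2 : ∀ r, r <+: d → r ≠ d → y₁ r = y₂ r)
    (h3 : ∀ t, ¬ d <+: t → u t = 0) :
    ∃ w₁ w₂ : JT, w₁ + w₂ = u ∧ (∀ t, u t = 0 → w₁ t = 0 ∧ w₂ t = 0) ∧
      ‖y₁ + θ • w₁‖ ^ 2 ≤ ‖y₁‖ ^ 2 + 3 * θ ^ 2 * ‖u‖ ^ 2 ∧
      ‖y₂ - θ • w₂‖ ^ 2 ≤ ‖y₂‖ ^ 2 + 3 * θ ^ 2 * ‖u‖ ^ 2 := by
  rcases List.eq_nil_or_concat d with rfl | ⟨c, k, hd⟩
  · -- the root case: both `y₁` and `y₂` vanish
    have hy₁ : y₁ = 0 := by
      ext t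
      rw [JT.zero_apply]
      exact (h1 t List.nil_prefix).1
    have hy₂ : y₂ = 0 := by
      ext t
      rw [JT.zero_apply]
      exact (h1 t List.nil_prefix).2
    refine ⟨u, 0, add_zero u, fun t ht => ⟨ht, JT.zero_apply t⟩, ?_, ?_⟩
    · rw [hy₁, zero_add, norm_smul, norm_zero, Real.norm_eq_abs, abs_of_nonneg hθ]
      have h4 : 0 ≤ θ ^ 2 * ‖u‖ ^ 2 := by positivity
      calc (θ * ‖u‖) ^ 2 = θ ^ 2 * ‖u‖ ^ 2 := by ring
        _ ≤ 0 ^ 2 + 3 * θ ^ 2 * ‖u‖ ^ 2 := by nlinarith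
    · rw [hy₂, smul_zero, sub_zero, norm_zero]
      have h4 : 0 ≤ θ ^ 2 * ‖u‖ ^ 2 := by positivity
      nlinarith
  · -- the case `d = c ++ [k]`
    rw [List.concat_eq_append] at hd
    subst hd
    have htail : tailSum (⇑y₁) c = tailSum (⇑y₂) c := by
      funext r
      unfold tailSum
      apply Finset.sum_congr rfl
      intro t ht
      have htc : t <+: c := (List.mem_inits t c).mp (List.mem_toFinset.mp (Finset.mem_filter.mp ht).1)
      apply h2 t (htc.trans (List.prefix_append c [k]))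
      intro heq
      have h5 := htc.length_le
      rw [heq, List.length_append, List.length_singleton] at h5
      omega
    have hsc : ∀ s τ : ℝ, SignCond (⇑y₁) c s τ → SignCond (⇑y₂) c s τ := by
      intro s τ h
      unfold SignCond at h ⊢
      rw [← htail]
      exact h
    have hτ : 0 ≤ θ * ‖u‖ := mul_nonneg hθ (norm_nonneg u)
    have hy₁ : ∀ t, (c ++ [k]) <+: t → y₁ t = 0 := fun t ht => (h1 t ht).1
    have hy₂ : ∀ t, (c ++ [k]) <+: t → y₂ t = 0 := fun t ht => (h1 t ht).2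
    have hpos0 : ∀ t, u t = 0 → JT.pos u t = 0 := by
      intro t ht
      rw [JT.coe_pos]
      exact posFn_eq_zero ht
    have hneg0 : ∀ t, u t = 0 → JT.neg' u t = 0 := by
      intro t ht
      rw [JT.coe_neg']
      exact negFn_eq_zero ht
    have hnpos : ‖θ • JT.pos u‖ ≤ θ * ‖u‖ := by
      rw [norm_smul, Real.norm_eq_abs, abs_of_nonneg hθ]
      exact mul_le_mul_of_nonneg_left (JT.norm_pos_le u) hθ
    have hnneg : ‖θ • JT.neg' u‖ ≤ θ * ‖u‖ := by
      rw [norm_smul, Real.norm_eq_abs, abs_of_nonneg hθ]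
      exact mul_le_mul_of_nonneg_left (JT.norm_neg'_le u) hθ
    -- segment sums of the four perturbations
    have hseg : ∀ S, IsSeg S → (c ++ [k]) ∈ S → (∀ t ∈ S, (c ++ [k]) <+: t) →
        segSum (⇑(θ • JT.pos u)) S = θ * max (segSum u S) 0 ∧
        segSum (⇑(θ • JT.neg' u)) S = θ * min (segSum u S) 0 ∧
        |segSum u S| ≤ ‖u‖ := by
      intro S hS hd hall
      obtain ⟨e1, e2⟩ := segSum_pos_neg'_of_subtree (c ++ [k]) u h3 S hS hd hall
      refine ⟨?_, ?_, JT.abs_segSum_le_norm hS u⟩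
      · rw [JT.coe_smul, segSum_smul, e1]
      · rw [JT.coe_smul, segSum_smul, e2]
    have hmaxle : ∀ σ : ℝ, |σ| ≤ ‖u‖ → θ * max σ 0 ≤ θ * ‖u‖ := by
      intro σ hσ
      apply mul_le_mul_of_nonneg_left _ hθ
      exact max_le ((le_abs_self σ).trans hσ) (norm_nonneg u)
    have hminle : ∀ σ : ℝ, |σ| ≤ ‖u‖ → -(θ * min σ 0) ≤ θ * ‖u‖ := by
      intro σ hσ
      have h5 : -min σ 0 ≤ ‖u‖ := by
        rcases le_total σ 0 with h | h
        · rw [min_eq_left h]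
          exact (neg_le_abs σ).trans hσ
        · rw [min_eq_right h, neg_zero]
          exact norm_nonneg u
      calc -(θ * min σ 0) = θ * (-min σ 0) := by ring
        _ ≤ θ * ‖u‖ := mul_le_mul_of_nonneg_left h5 hθ
    have hmax0 : ∀ σ : ℝ, 0 ≤ θ * max σ 0 := fun σ => mul_nonneg hθ (le_max_right σ 0)
    have hmin0 : ∀ σ : ℝ, 0 ≤ -(θ * min σ 0) := by
      intro σ
      have : θ * min σ 0 ≤ 0 := mul_nonpos_of_nonneg_of_nonpos hθ (min_le_right σ 0)
      linarith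
    rcases signCond_or (⇑y₁) c (θ * ‖u‖) with hα | hα
    · -- sign `1`: `w₁` is the positive part, `w₂` the negative part
      refine ⟨JT.pos u, JT.neg' u, JT.pos_add_neg' u, fun t ht => ⟨hpos0 t ht, hneg0 t ht⟩, ?_, ?_⟩
      · refine oneSub_bound c k y₁ u (θ • JT.pos u) θ hθ hy₁ h3 1 (Or.inl rfl) hα ?_ hnpos ?_
        · intro t ht
          rw [JT.smul_apply, hpos0 t ht, mul_zero]
        · intro S hS hd hall
          obtain ⟨e1, -, e3⟩ := hseg S hS hd hall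
          rw [e1, one_mul, abs_of_nonneg (hmax0 _)]
          exact ⟨hmax0 _, hmaxle _ e3⟩
      · rw [sub_eq_add_neg]
        refine oneSub_bound c k y₂ u (-(θ • JT.neg' u)) θ hθ hy₂ h3 1 (Or.inl rfl)
          (hsc 1 _ hα) ?_ ?_ ?_
        · intro t ht
          rw [JT.neg_apply, JT.smul_apply, hneg0 t ht, mul_zero, neg_zero]
        · rw [norm_neg]
          exact hnneg
        · intro S hS hd hall
          obtain ⟨-, e2, e3⟩ := hseg S hS hd hall
          rw [JT.coe_neg, segSum_neg, e2, one_mul, abs_of_nonneg (hmin0 _)]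
          exact ⟨hmin0 _, hminle _ e3⟩
    · -- sign `-1`: `w₁` is the negative part, `w₂` the positive part
      refine ⟨JT.neg' u, JT.pos u, by rw [add_comm]; exact JT.pos_add_neg' u,
        fun t ht => ⟨hneg0 t ht, hpos0 t ht⟩, ?_, ?_⟩
      · refine oneSub_bound c k y₁ u (θ • JT.neg' u) θ hθ hy₁ h3 (-1) (Or.inr rfl) hα ?_ hnneg ?_
        · intro t ht
          rw [JT.smul_apply, hneg0 t ht, mul_zero]
        · intro S hS hd hall
          obtain ⟨-, e2, e3⟩ := hseg S hS hd hall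
          rw [e2]
          have h6 : (-1 : ℝ) * (θ * min (segSum (⇑u) S) 0) = -(θ * min (segSum (⇑u) S) 0) := by
            ring
          have h7 : |θ * min (segSum (⇑u) S) 0| = -(θ * min (segSum (⇑u) S) 0) := by
            rw [abs_of_nonpos]
            linarith [hmin0 (segSum (⇑u) S)]
          rw [h6, h7]
          exact ⟨hmin0 _, hminle _ e3⟩
      · rw [sub_eq_add_neg]
        refine oneSub_bound c k y₂ u (-(θ • JT.pos u)) θ hθ hy₂ h3 (-1) (Or.inr rfl)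
          (hsc (-1) _ hα) ?_ ?_ ?_
        · intro t ht
          rw [JT.neg_apply, JT.smul_apply, hpos0 t ht, mul_zero, neg_zero]
        · rw [norm_neg]
          exact hnpos
        · intro S hS hd hall
          obtain ⟨e1, -, e3⟩ := hseg S hS hd hall
          rw [JT.coe_neg, segSum_neg, e1]
          have h6 : (-1 : ℝ) * -(θ * max (segSum (⇑u) S) 0) = θ * max (segSum (⇑u) S) 0 := by
            ring
          rw [h6, abs_neg, abs_of_nonneg (hmax0 _)]
          exact ⟨hmax0 _, hmaxle _ e3⟩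

end Vale.Agent.Lib.P069
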