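import Vale.Agent.Lib.P069.JTKeyDefs

namespace Vale.Agent.Lib.P069

open Finset

theorem val_perm {l₁ l₂ : List (Finset Node)} (h : l₁.Perm l₂) (x : Node → ℝ) :
    val l₁ x = val l₂ x :=
  (h.map _).sum_eq

/-- A nonempty segment has a least element. -/
theorem IsSeg.exists_least' {S : Finset Node} (hS : IsSeg S) (hne : S.Nonempty) :
    ∃ a ∈ S, ∀ t ∈ S, a <+: t := by
  obtain ⟨a, ha, hmin⟩ := Finset.exists_min_image S List.length hne
  refine ⟨a, ha, fun t ht => ?_⟩
  rcases hS.1 a ha t ht with h | h
  · exact h
  · have : t = a := h.eq_of_length_le (hmin t ht)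
    rw [this]

theorem prefix_of_prefix_concat_ne {s c : Node} {k : ℕ} (h : s <+: c ++ [k])
    (hne : s ≠ c ++ [k]) : s <+: c := by
  rcases List.prefix_concat_iff.mp h with h | h
  · exact absurd h hne
  · exact h

theorem not_concat_prefix (c : Node) (k : ℕ) {t : Node} (h : t <+: c) : ¬ (c ++ [k]) <+: t := by
  intro h'
  have h1 := (h'.trans h).length_le
  simp at h1

/-- Fixed-sign estimate for a perturbation supported on the subtree at `c ++ [k]`. -/
theorem oneSub_fixed (c : Node) (k : ℕ) (y p : JT) (s τ κ : ℝ) (hs : s = 1 ∨ s = -1)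
    (hτ : 0 ≤ τ)
    (hy : ∀ t, (c ++ [k]) <+: t → y t = 0)
    (hp : ∀ t, ¬ (c ++ [k]) <+: t → p t = 0)
    (hpn : ‖p‖ ≤ κ)
    (hsign : ∀ S, IsSeg S → (c ++ [k]) ∈ S → (∀ t ∈ S, (c ++ [k]) <+: t) →
      0 ≤ s * segSum p S ∧ |segSum p S| ≤ τ)
    (hα : SignCond y c s τ) :
    ‖y + p‖ ^ 2 ≤ ‖y‖ ^ 2 + 2 * τ ^ 2 + κ ^ 2 := by
  set d : Node := c ++ [k] with hd
  have hup : ∀ s r : Node, d <+: s → s <+: r → d <+: r := fun s r h1 h2 => h1.trans h2
  have hss : s * s = 1 := by rcases hs with h | h <;> rw [h] <;> norm_num
  have hκ : ‖p‖ ^ 2 ≤ κ ^ 2 := by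
    have := JT.norm_nonneg' p
    nlinarith
  refine JT.norm_sq_le_of_forall fun l hl => ?_
  -- splitting of segment sums
  have hsplit : ∀ S : Finset Node, segSum (⇑(y + p)) S =
      segSum y (S.filter fun t => ¬ d <+: t) + segSum p (S.filter fun t => d <+: t) := by
    intro S
    unfold segSum
    rw [← Finset.sum_filter_add_sum_filter_not S (fun t => d <+: t) (fun t => (y + p) t)]
    have e1 : ∑ t ∈ S.filter (fun t => d <+: t), (y + p) t =
        ∑ t ∈ S.filter (fun t => d <+: t), p t := by
      refine Finset.sum_congr rfl fun t ht => ?_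
      rw [JT.add_apply, hy t (Finset.mem_filter.mp ht).2, zero_add]
    have e2 : ∑ t ∈ S.filter (fun t => ¬ d <+: t), (y + p) t =
        ∑ t ∈ S.filter (fun t => ¬ d <+: t), y t := by
      refine Finset.sum_congr rfl fun t ht => ?_
      rw [JT.add_apply, hp t (Finset.mem_filter.mp ht).2, add_zero]
    rw [e1, e2, add_comm]
  have hval : ∀ l : List (Finset Node), val l (⇑(y + p)) =
      val (l.map fun S => S.filter fun t => ¬ d <+: t) y +
      val (l.map fun S => S.filter fun t => d <+: t) p +
      2 * (l.map fun S => segSum y (S.filter fun t => ¬ d <+: t) *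
        segSum p (S.filter fun t => d <+: t)).sum := by
    intro l
    induction l with
    | nil => simp [val_nil]
    | cons S l ih =>
      rw [val_cons, List.map_cons, List.map_cons, List.map_cons, val_cons, val_cons,
        List.sum_cons, ih, hsplit]
      ring
  have hVin : val (l.map fun S => S.filter fun t => d <+: t) p ≤ κ ^ 2 :=
    (JT.val_le_norm_sq (hl.map_filter _ fun S hS => (hl.1 S hS).filter_up _ hup) p).trans hκ
  have hVout : val (l.map fun S => S.filter fun t => ¬ d <+: t) y ≤ ‖y‖ ^ 2 :=
    JT.val_le_norm_sq (hl.map_filter _ fun S hS => (hl.1 S hS).filter_not_of_up _ hup) y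
  -- a segment not containing `d` does not cross
  have hnocross : ∀ S, IsSeg S → d ∉ S →
      segSum y (S.filter fun t => ¬ d <+: t) * segSum p (S.filter fun t => d <+: t) = 0 := by
    intro S hS hdS
    by_cases hin : (S.filter fun t => d <+: t) = ∅
    · rw [hin]; simp [segSum]
    · by_cases hout : (S.filter fun t => ¬ d <+: t) = ∅
      · rw [hout]; simp [segSum]
      · exfalso
        obtain ⟨t, ht⟩ := Finset.nonempty_iff_ne_empty.mpr hin
        obtain ⟨r, hr⟩ := Finset.nonempty_iff_ne_empty.mpr hout
        obtain ⟨htS, hdt⟩ := Finset.mem_filter.mp ht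
        obtain ⟨hrS, hdr⟩ := Finset.mem_filter.mp hr
        have hrt : r <+: t := by
          rcases hS.1 r hrS t htS with h | h
          · exact h
          · exact absurd (hdt.trans h) hdr
        have hrd : r <+: d := by
          rcases List.prefix_or_prefix_of_prefix hrt hdt with h | h
          · exact h
          · exact absurd h hdr
        exact hdS (hS.2.1 r hrS t htS d hrd hdt)
  by_cases hex : ∃ S₀ ∈ l, d ∈ S₀
  · obtain ⟨S₀, hS₀, hdS₀⟩ := hex
    have hperm : l.Perm (S₀ :: l.erase S₀) := List.perm_cons_erase hS₀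
    have hfam' : IsFam (S₀ :: l.erase S₀) :=
      ⟨fun S hS => hl.1 S (hperm.mem_iff.mpr hS),
        (hperm.pairwise_iff (fun h => Disjoint.symm h)).mp hl.2⟩
    have hdisj : ∀ S ∈ l.erase S₀, Disjoint S₀ S := (List.pairwise_cons.mp hfam'.2).1
    have hcross' : ((l.erase S₀).map fun S => segSum y (S.filter fun t => ¬ d <+: t) *
        segSum p (S.filter fun t => d <+: t)).sum = 0 := by
      refine List.sum_eq_zero fun x hx => ?_
      obtain ⟨S, hS, rfl⟩ := List.mem_map.mp hx
      refine hnocross S (hfam'.1 S (List.mem_cons_of_mem _ hS)) fun hdS => ?_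
      exact Finset.disjoint_left.mp (hdisj S hS) hdS₀ hdS
    have hcross : (l.map fun S => segSum y (S.filter fun t => ¬ d <+: t) *
        segSum p (S.filter fun t => d <+: t)).sum =
        segSum y (S₀.filter fun t => ¬ d <+: t) * segSum p (S₀.filter fun t => d <+: t) := by
      rw [(hperm.map _).sum_eq, List.map_cons, List.sum_cons, hcross', add_zero]
    have hSeg₀ : IsSeg S₀ := hl.1 S₀ hS₀
    have hβ := hsign (S₀.filter fun t => d <+: t) (hSeg₀.filter_up _ hup)
      (Finset.mem_filter.mpr ⟨hdS₀, List.prefix_refl d⟩) (fun t ht => (Finset.mem_filter.mp ht).2)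
    rw [hval, hcross]
    set α₀ := segSum y (S₀.filter fun t => ¬ d <+: t) with hα₀
    set β₀ := segSum p (S₀.filter fun t => d <+: t) with hβ₀
    by_cases hsmall : α₀ * β₀ ≤ τ ^ 2
    · linarith
    · rw [not_le] at hsmall
      have hτ2 : 0 ≤ τ ^ 2 := sq_nonneg τ
      have hsα : 0 < s * α₀ := by
        by_contra hneg
        rw [not_lt] at hneg
        have e : α₀ * β₀ = (s * α₀) * (s * β₀) := by
          calc α₀ * β₀ = (s * s) * (α₀ * β₀) := by rw [hss, one_mul]
            _ = (s * α₀) * (s * β₀) := by ring
        have : α₀ * β₀ ≤ 0 := by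
          rw [e]; exact mul_nonpos_of_nonpos_of_nonneg hneg hβ.1
        linarith
      have hαβ : α₀ * β₀ ≤ |α₀| * |β₀| := by
        rw [← abs_mul]; exact le_abs_self _
      have hαbig : τ < |α₀| := by
        by_contra hle
        rw [not_lt] at hle
        have : |α₀| * |β₀| ≤ τ * τ :=
          mul_le_mul hle hβ.2 (abs_nonneg _) hτ
        nlinarith
      have hout_ne : (S₀.filter fun t => ¬ d <+: t).Nonempty := by
        by_contra hne
        rw [Finset.not_nonempty_iff_eq_empty] at hne
        have : α₀ = 0 := by rw [hα₀, hne]; simp [segSum]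
        rw [this, abs_zero] at hαbig
        linarith
      obtain ⟨s₁, hs₁⟩ := hout_ne
      obtain ⟨hs₁S, hds₁⟩ := Finset.mem_filter.mp hs₁
      have hs₁d : s₁ <+: d := by
        rcases hSeg₀.1 s₁ hs₁S d hdS₀ with h | h
        · exact h
        · exact absurd h hds₁
      have hs₁c : s₁ <+: c :=
        prefix_of_prefix_concat_ne hs₁d (by rintro rfl; exact hds₁ (List.prefix_refl _))
      have hcS₀ : c ∈ S₀ := hSeg₀.2.1 s₁ hs₁S d hdS₀ c hs₁c (List.prefix_append c [k])
      obtain ⟨r₀, hr₀, hleast⟩ := hSeg₀.exists_least' ⟨d, hdS₀⟩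
      have hr₀c : r₀ <+: c := hleast c hcS₀
      have hF1 : (S₀.filter fun t => ¬ d <+: t) = c.inits.toFinset.filter (fun t => r₀ <+: t) := by
        ext t
        simp only [Finset.mem_filter, List.mem_toFinset, List.mem_inits]
        constructor
        · rintro ⟨htS, hdt⟩
          have htd : t <+: d := by
            rcases hSeg₀.1 t htS d hdS₀ with h | h
            · exact h
            · exact absurd h hdt
          exact ⟨prefix_of_prefix_concat_ne htd (by rintro rfl; exact hdt (List.prefix_refl _)),
            hleast t htS⟩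
        · rintro ⟨htc, hrt⟩
          exact ⟨hSeg₀.2.1 r₀ hr₀ c hcS₀ t hrt htc, not_concat_prefix c k htc⟩
      have hα₀' : α₀ = tailSum y c r₀ := by rw [hα₀, hF1]; rfl
      rw [hα₀'] at hsα hαbig
      rcases hα r₀ hr₀c hsα with hle | ⟨r', hr₀r', hne, hr'c, hgain⟩
      · linarith
      · rw [← hα₀'] at hgain hαbig
        set α' := tailSum y c r' with hα'
        have hup' : ∀ s r : Node, r' <+: s → s <+: r → r' <+: r := fun s r h1 h2 => h1.trans h2
        have hSout : IsSeg (S₀.filter fun t => ¬ d <+: t) := hSeg₀.filter_not_of_up _ hup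
        have hS₂ : segSum y ((S₀.filter fun t => ¬ d <+: t).filter fun t => r' <+: t) = α' := by
          rw [hF1, hα']
          unfold tailSum segSum
          refine Finset.sum_congr ?_ fun _ _ => rfl
          ext t
          simp only [Finset.mem_filter, List.mem_toFinset, List.mem_inits]
          constructor
          · rintro ⟨⟨h1, -⟩, h3⟩
            exact ⟨h1, h3⟩
          · rintro ⟨h1, h3⟩
            exact ⟨⟨h1, hr₀r'.trans h3⟩, h3⟩
        have hS₁ : segSum y ((S₀.filter fun t => ¬ d <+: t).filter fun t => ¬ r' <+: t) =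
            α₀ - α' := by
          have := Finset.sum_filter_add_sum_filter_not (S₀.filter fun t => ¬ d <+: t)
            (fun t => r' <+: t) (fun t => y t)
          unfold segSum at hS₂ hα₀ ⊢
          rw [hα₀, ← this, hS₂]
          ring
        have hfam'' : IsFam (((S₀.filter fun t => ¬ d <+: t).filter fun t => ¬ r' <+: t) ::
            ((S₀.filter fun t => ¬ d <+: t).filter fun t => r' <+: t) ::
            (l.erase S₀).map fun S => S.filter fun t => ¬ d <+: t) := by
          have hrest : IsFam ((l.erase S₀).map fun S => S.filter fun t => ¬ d <+: t) := by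
            have hf : IsFam (l.erase S₀) :=
              ⟨fun S hS => hfam'.1 S (List.mem_cons_of_mem _ hS), (List.pairwise_cons.mp hfam'.2).2⟩
            exact hf.map_filter _ fun S hS => (hf.1 S hS).filter_not_of_up _ hup
          have hsub : ∀ T : Finset Node, T ⊆ S₀ →
              ∀ b ∈ (l.erase S₀).map fun S => S.filter fun t => ¬ d <+: t, Disjoint T b := by
            intro T hT b hb
            obtain ⟨S, hS, rfl⟩ := List.mem_map.mp hb
            exact Finset.disjoint_of_subset_left hT
              (Finset.disjoint_of_subset_right (Finset.filter_subset _ _) (hdisj S hS))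
          have hsub₀ : (S₀.filter fun t => ¬ d <+: t) ⊆ S₀ := Finset.filter_subset _ _
          refine ⟨?_, ?_⟩
          · intro S hS
            rcases List.mem_cons.mp hS with h | h
            · rw [h]; exact hSout.filter_not_of_up _ hup'
            · rcases List.mem_cons.mp h with h | h
              · rw [h]; exact hSout.filter_up _ hup'
              · exact hrest.1 S h
          · refine List.pairwise_cons.mpr ⟨?_, List.pairwise_cons.mpr ⟨?_, hrest.2⟩⟩
            · intro b hb
              rcases List.mem_cons.mp hb with h | h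
              · rw [h, Finset.disjoint_left]
                intro t ht₁ ht₂
                exact (Finset.mem_filter.mp ht₁).2 (Finset.mem_filter.mp ht₂).2
              · exact hsub _ ((Finset.filter_subset _ _).trans hsub₀) b h
            · intro b hb
              exact hsub _ ((Finset.filter_subset _ _).trans hsub₀) b hb
        have h1 := JT.val_le_norm_sq hfam'' y
        rw [val_cons, val_cons, hS₁, hS₂] at h1
        have h2 : val (l.map fun S => S.filter fun t => ¬ d <+: t) y =
            α₀ ^ 2 + val ((l.erase S₀).map fun S => S.filter fun t => ¬ d <+: t) y := by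
          rw [val_perm (hperm.map _) y, List.map_cons, val_cons]
        have h3 : α₀ * β₀ ≤ |α₀| * τ := by
          have := mul_le_mul_of_nonneg_left hβ.2 (abs_nonneg α₀)
          linarith
        have e : (α₀ - α') ^ 2 = α₀ ^ 2 - 2 * α₀ * α' + α' ^ 2 := by ring
        rw [e] at h1
        rw [h2]
        linarith
  · have hz : (l.map fun S => segSum y (S.filter fun t => ¬ d <+: t) *
        segSum p (S.filter fun t => d <+: t)).sum = 0 := by
      refine List.sum_eq_zero fun x hx => ?_
      obtain ⟨S, hS, rfl⟩ := List.mem_map.mp hx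
      exact hnocross S (hl.1 S hS) fun h => hex ⟨S, hS, h⟩
    rw [hval, hz]
    nlinarith [sq_nonneg τ]

end Vale.Agent.Lib.P069
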