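import Vale.Agent.Lib.P069.JTApprox

namespace Vale.Agent.Lib.P069

open Finset

/-- A family of nonnegative sums over finite sets of nodes with head below `m` that is
bounded has uniformly small tails off a suitable finite set. -/
theorem exists_finset_tail_small (b : Node → ℝ) (m : ℕ) (C : ℝ)
    (hC : ∀ B : Finset Node, (∀ t ∈ B, t.headD 0 < m) → ∑ t ∈ B, b t ^ 2 ≤ C)
    {η : ℝ} (hη : 0 < η) :
    ∃ B₀ : Finset Node, (∀ t ∈ B₀, t.headD 0 < m) ∧
      ∀ B' : Finset Node, (∀ t ∈ B', t.headD 0 < m) → Disjoint B' B₀ →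
        ∑ t ∈ B', b t ^ 2 ≤ η := by
  set S : Set ℝ := {v | ∃ B : Finset Node, (∀ t ∈ B, t.headD 0 < m) ∧ v = ∑ t ∈ B, b t ^ 2}
    with hS
  have hne : S.Nonempty := ⟨0, ∅, by simp, by simp⟩
  have hbdd : BddAbove S := by
    refine ⟨C, ?_⟩
    rintro v ⟨B, hB, rfl⟩
    exact hC B hB
  obtain ⟨v, ⟨B₀, hB₀, rfl⟩, hv⟩ := exists_lt_of_lt_csSup hne (sub_lt_self (sSup S) hη)
  refine ⟨B₀, hB₀, ?_⟩
  intro B' hB' hdisj
  have hmem : ∑ t ∈ B' ∪ B₀, b t ^ 2 ∈ S := by
    refine ⟨B' ∪ B₀, ?_, rfl⟩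
    intro t ht
    rcases Finset.mem_union.mp ht with h | h
    · exact hB' t h
    · exact hB₀ t h
  have hle := le_csSup hbdd hmem
  rw [Finset.sum_union hdisj] at hle
  linarith

/-- The space is norm dense in its bidual. -/
theorem dense_in_bidual (ξ : (JT →L[ℝ] ℝ) →L[ℝ] ℝ) {ε : ℝ} (hε : 0 < ε) :
    ∃ z : JT, ‖ξ - NormedSpace.inclusionInDoubleDual ℝ JT z‖ < ε := by
  -- Step 1: block projections on the dual and on the bidual
  have hQ : ∀ m, IsL2Proj (dualMap (JT.blockProj m)) := fun m => (JT.isL2Proj_blockProj m).dual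
  have hQconv : ∀ g : JT →L[ℝ] ℝ,
      Filter.Tendsto (fun m => dualMap (JT.blockProj m) g) Filter.atTop (nhds g) :=
    fun g => tendsto_dualMap (fun m => JT.isL2Proj_blockProj m) JT.tendsto_blockProj g
  have hξconv := tendsto_dualMap hQ hQconv ξ
  rw [tendsto_iff_norm_sub_tendsto_zero] at hξconv
  have hev := hξconv.eventually (gt_mem_nhds (half_pos hε))
  obtain ⟨m, hm⟩ := hev.exists
  rw [dualMap_apply] at hm
  -- Step 2: the coefficients
  set b : Node → ℝ := fun t => ξ (JT.coord t) with hb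
  have hsm0 : 0 ≤ Real.sqrt m := Real.sqrt_nonneg _
  set ε' : ℝ := ε / (2 * (Real.sqrt m + 1)) with hε'
  have hε'pos : 0 < ε' := by positivity
  obtain ⟨B₀, hB₀, htail⟩ := exists_finset_tail_small b m (‖ξ‖ ^ 2)
    (fun B _ => JT.sum_sq_apply_coord_le ξ B) (η := ε' ^ 2) (by positivity)
  set z : JT := ∑ t ∈ B₀, b t • JT.single t with hz
  refine ⟨z, ?_⟩
  have hclaim : ‖ξ.comp (dualMap (JT.blockProj m)) - NormedSpace.inclusionInDoubleDual ℝ JT z‖
      ≤ Real.sqrt m * ε' := by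
    refine ContinuousLinearMap.opNorm_le_bound _ (by positivity) ?_
    intro f
    rw [Real.norm_eq_abs]
    have hval : (ξ.comp (dualMap (JT.blockProj m)) - NormedSpace.inclusionInDoubleDual ℝ JT z) f
        = ξ (f.comp (JT.blockProj m)) - ∑ t ∈ B₀, b t * f (JT.single t) := by
      rw [sub_apply, ContinuousLinearMap.comp_apply, dualMap_apply,
        NormedSpace.dual_def, hz, map_sum]
      congr 1
      refine Finset.sum_congr rfl (fun t _ => ?_)
      rw [map_smul, smul_eq_mul]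
    rw [hval]
    refine le_of_forall_pos_le_add ?_
    intro δ hδ
    set η : ℝ := δ / (‖ξ‖ + 1) with hηdef
    have hηpos : 0 < η := by positivity
    obtain ⟨B₁, hB₁, happ⟩ := JT.exists_finite_approx_block f m hηpos
    set B := B₀ ∪ B₁ with hBdef
    have hBhead : ∀ t ∈ B, t.headD 0 < m := by
      intro t ht
      rcases Finset.mem_union.mp ht with h | h
      · exact hB₀ t h
      · exact hB₁ t h
    have hh := happ B Finset.subset_union_right hBhead
    set h : JT →L[ℝ] ℝ := f.comp (JT.blockProj m) - ∑ t ∈ B, f (JT.single t) • JT.coord t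
      with hhdef
    have e1 : f.comp (JT.blockProj m) = h + ∑ t ∈ B, f (JT.single t) • JT.coord t := by
      rw [hhdef]; abel
    have e2 : ξ (f.comp (JT.blockProj m)) = ξ h + ∑ t ∈ B, f (JT.single t) * b t := by
      rw [e1, map_add, map_sum]
      congr 1
      refine Finset.sum_congr rfl (fun t _ => ?_)
      rw [map_smul, smul_eq_mul]
    have e3 : ∑ t ∈ B, f (JT.single t) * b t
        = ∑ t ∈ B \ B₀, f (JT.single t) * b t + ∑ t ∈ B₀, b t * f (JT.single t) := by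
      rw [← Finset.sum_sdiff (Finset.subset_union_left : B₀ ⊆ B)]
      congr 1
      refine Finset.sum_congr rfl (fun t _ => ?_)
      ring
    have e4 : ξ (f.comp (JT.blockProj m)) - ∑ t ∈ B₀, b t * f (JT.single t)
        = ξ h + ∑ t ∈ B \ B₀, f (JT.single t) * b t := by
      rw [e2, e3]; ring
    rw [e4]
    have b1 : |ξ h| ≤ δ := by
      have h1 : |ξ h| ≤ ‖ξ‖ * ‖h‖ := by
        have := ξ.le_opNorm h
        rwa [Real.norm_eq_abs] at this
      have h2 : ‖ξ‖ * ‖h‖ ≤ ‖ξ‖ * η := mul_le_mul_of_nonneg_left hh (norm_nonneg ξ)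
      have h3 : ‖ξ‖ * η ≤ δ := by
        rw [hηdef, ← mul_div_assoc, div_le_iff₀ (by positivity)]
        nlinarith [norm_nonneg ξ]
      linarith
    have b2 : |∑ t ∈ B \ B₀, f (JT.single t) * b t| ≤ Real.sqrt m * ε' * ‖f‖ := by
      have hcs := Finset.sum_mul_sq_le_sq_mul_sq (B \ B₀) (fun t => f (JT.single t)) b
      have hs1 : ∑ t ∈ B \ B₀, f (JT.single t) ^ 2 ≤ m * ‖f‖ ^ 2 :=
        JT.sum_sq_apply_single_le f m (B \ B₀)
          (fun t ht => hBhead t (Finset.mem_sdiff.mp ht).1)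
      have hs2 : ∑ t ∈ B \ B₀, b t ^ 2 ≤ ε' ^ 2 :=
        htail (B \ B₀) (fun t ht => hBhead t (Finset.mem_sdiff.mp ht).1)
          Finset.sdiff_disjoint
      have hs3 : 0 ≤ ∑ t ∈ B \ B₀, b t ^ 2 := Finset.sum_nonneg (fun t _ => sq_nonneg _)
      have hs4 : 0 ≤ ∑ t ∈ B \ B₀, f (JT.single t) ^ 2 :=
        Finset.sum_nonneg (fun t _ => sq_nonneg _)
      refine abs_le_of_sq_le_sq ?_ (by positivity)
      calc (∑ t ∈ B \ B₀, f (JT.single t) * b t) ^ 2
          ≤ (∑ t ∈ B \ B₀, f (JT.single t) ^ 2) * ∑ t ∈ B \ B₀, b t ^ 2 := hcs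
        _ ≤ (m * ‖f‖ ^ 2) * ε' ^ 2 := mul_le_mul hs1 hs2 hs3 (by positivity)
        _ = (Real.sqrt m * ε' * ‖f‖) ^ 2 := by
          rw [mul_pow, mul_pow, Real.sq_sqrt (Nat.cast_nonneg m)]; ring
    have := abs_add_le (ξ h) (∑ t ∈ B \ B₀, f (JT.single t) * b t)
    linarith
  have htri : ‖ξ - NormedSpace.inclusionInDoubleDual ℝ JT z‖
      ≤ ‖ξ.comp (dualMap (JT.blockProj m)) - ξ‖
        + ‖ξ.comp (dualMap (JT.blockProj m)) - NormedSpace.inclusionInDoubleDual ℝ JT z‖ := by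
    have h1 := norm_sub_le_norm_sub_add_norm_sub ξ (ξ.comp (dualMap (JT.blockProj m)))
      (NormedSpace.inclusionInDoubleDual ℝ JT z)
    rw [norm_sub_rev ξ (ξ.comp (dualMap (JT.blockProj m)))] at h1
    exact h1
  have hsmall : Real.sqrt m * ε' < ε / 2 := by
    rw [hε', ← mul_div_assoc, div_lt_iff₀ (by positivity)]
    nlinarith
  have hm' : ‖ξ.comp (dualMap (JT.blockProj m)) - ξ‖ < ε / 2 := hm
  linarith

/-- The dual space is reflexive. -/
theorem reflexive_dual :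
    Function.Surjective (NormedSpace.inclusionInDoubleDual ℝ (JT →L[ℝ] ℝ)) :=
  surjective_inclusionInDoubleDual_dual fun ξ _ hε => dense_in_bidual ξ hε

end Vale.Agent.Lib.P069
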