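import Mathlib
import Vale.Agent.Lib.P069.Defs

namespace Vale.Agent.Lib.P069

open Filter

variable {X : Type*} [NormedAddCommGroup X] [NormedSpace ℝ X]

/-- A weakly null sequence is eventually within `ε` of any closed subspace of finite
codimension. -/
theorem exists_near_mem_of_weakly_null {F : Submodule ℝ X} (hF : IsCof F) (y : ℕ → X)
    (hy : ∀ φ : X →L[ℝ] ℝ, Filter.Tendsto (fun k => φ (y k)) Filter.atTop (nhds 0))
    {ε : ℝ} (hε : 0 < ε) : ∃ K, ∀ k ≥ K, ∃ z ∈ F, ‖y k - z‖ < ε := by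
  obtain ⟨hcl, hfd⟩ := hF
  have : IsClosed (F : Set X) := hcl
  have : FiniteDimensional ℝ (X ⧸ F) := hfd
  let q : X →L[ℝ] X ⧸ F := F.mkQL
  let bs := Module.finBasis ℝ (X ⧸ F)
  have hq : Tendsto (fun k => q (y k)) atTop (nhds 0) := by
    have h1 : ∀ k, q (y k) = ∑ i, (bs.coord i) (q (y k)) • bs i :=
      fun k => (bs.sum_repr (q (y k))).symm
    have h2 : Tendsto (fun k => ∑ i, (bs.coord i) (q (y k)) • bs i) atTop
        (nhds (∑ i, (0 : ℝ) • bs i)) := by
      apply tendsto_finsetSum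
      intro i _
      apply Tendsto.smul_const
      exact hy ((LinearMap.toContinuousLinearMap (bs.coord i)).comp q)
    simp only [zero_smul, Finset.sum_const_zero] at h2
    exact h2.congr (fun k => (h1 k).symm)
  have hn : Tendsto (fun k => ‖q (y k)‖) atTop (nhds 0) := by
    simpa using hq.norm
  have hev : ∀ᶠ k in atTop, ‖q (y k)‖ < ε / 2 := hn.eventually (gt_mem_nhds (by linarith))
  obtain ⟨K, hK⟩ := eventually_atTop.1 hev
  refine ⟨K, fun k hk => ?_⟩
  obtain ⟨m, hm1, hm2⟩ := Submodule.Quotient.norm_mk_lt (q (y k)) (half_pos hε)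
  refine ⟨y k - m, ?_, ?_⟩
  · rw [← Submodule.Quotient.mk_eq_zero F, Submodule.Quotient.mk_sub, hm1]
    exact sub_self _
  · have h3 : y k - (y k - m) = m := by abel
    rw [h3]
    linarith [hK k hk]

/-- One-sided monotonicity in the scale. -/
theorem auc_mono_scale (N : Seminorm ℝ X) {x z : X} (hx : N x = 1) {s₀ s δ : ℝ}
    (hs₀ : 0 < s₀) (hs : s₀ ≤ s) (hδ : 0 ≤ δ) (h : 1 + δ ≤ N (x + s₀ • z)) :
    1 + δ ≤ N (x + s • z) := by
  have hspos : 0 < s := lt_of_lt_of_le hs₀ hs
  obtain ⟨lam, hlam⟩ : ∃ lam : ℝ, lam = s₀ / s := ⟨_, rfl⟩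
  have hlam0 : 0 < lam := by rw [hlam]; exact div_pos hs₀ hspos
  have hlam1 : lam ≤ 1 := by rw [hlam]; exact (div_le_one hspos).mpr hs
  have hls : lam * s = s₀ := by rw [hlam]; field_simp
  have e : x + s₀ • z = (1 - lam) • x + lam • (x + s • z) := by
    rw [smul_add, smul_smul, hls, sub_smul, one_smul]; abel
  have h1 : N (x + s₀ • z) ≤ (1 - lam) * N x + lam * N (x + s • z) := by
    rw [e]
    refine (map_add_le_add N _ _).trans ?_
    rw [map_smul_eq_mul, map_smul_eq_mul, Real.norm_of_nonneg (by linarith),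
      Real.norm_of_nonneg hlam0.le]
  rw [hx] at h1
  have h2 : lam * (1 + δ) ≤ lam * N (x + s • z) := by nlinarith
  exact le_of_mul_le_mul_left h2 hlam0

/-- Homogeneous form of the AUC estimate at one scale. -/
theorem auc_homogeneous (N : Seminorm ℝ X) {t₀ δ : ℝ} (ht₀ : 0 < t₀) (hδ : 0 < δ)
    (hA : ∀ x : X, N x = 1 →
      ∃ F : Submodule ℝ X, IsCof F ∧ ∀ y ∈ F, N y = 1 → 1 + δ ≤ N (x + t₀ • y))
    (x : X) (hx : 0 < N x) :
    ∃ F : Submodule ℝ X, IsCof F ∧
      ∀ z ∈ F, t₀ * N x ≤ N z → (1 + δ) * N x ≤ N (x + z) := by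
  have hx1 : N ((N x)⁻¹ • x) = 1 := by
    rw [map_smul_eq_mul, Real.norm_of_nonneg (inv_nonneg.2 hx.le), inv_mul_cancel₀ hx.ne']
  obtain ⟨F, hF, hFy⟩ := hA _ hx1
  refine ⟨F, hF, fun z hz hzN => ?_⟩
  have hz0 : 0 < N z := lt_of_lt_of_le (mul_pos ht₀ hx) hzN
  have hy1 : N ((N z)⁻¹ • z) = 1 := by
    rw [map_smul_eq_mul, Real.norm_of_nonneg (inv_nonneg.2 hz0.le), inv_mul_cancel₀ hz0.ne']
  have h1 := hFy _ (F.smul_mem _ hz) hy1
  have hs : t₀ ≤ N z / N x := by
    rw [le_div_iff₀ hx]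
    exact hzN
  have h2 := auc_mono_scale N hx1 ht₀ hs hδ.le h1
  have e : (N x)⁻¹ • x + (N z / N x) • (N z)⁻¹ • z = (N x)⁻¹ • (x + z) := by
    rw [smul_smul, smul_add]
    congr 2
    field_simp
  rw [e, map_smul_eq_mul, Real.norm_of_nonneg (inv_nonneg.2 hx.le), inv_mul_eq_div,
    le_div_iff₀ hx] at h2
  exact h2

omit [NormedSpace ℝ X] in
/-- Branch sums along an extended branch. -/
theorem bsum_snoc (b : List ℕ → X) (l : List ℕ) (k : ℕ) :
    ∑ i ∈ Finset.range ((l ++ [k]).length + 1), b ((l ++ [k]).take i)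
      = ∑ i ∈ Finset.range (l.length + 1), b (l.take i) + b (l ++ [k]) := by
  have hlen : (l ++ [k]).length = l.length + 1 := by simp
  rw [hlen, Finset.sum_range_succ]
  congr 1
  · apply Finset.sum_congr rfl
    intro i hi
    rw [Finset.mem_range] at hi
    rw [List.take_append_of_le_length (by omega)]
  · rw [← hlen, List.take_length]

/-- Weakly null trees of every finite height with bounded branch sums and nodes of norm at
least one exclude an equivalent AUC norm. -/
theorem not_auc_of_trees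
    (h : ∀ n : ℕ, ∃ b : List ℕ → X,
      (∀ l : List ℕ, l.length ≤ n →
        ‖∑ i ∈ Finset.range (l.length + 1), b (l.take i)‖ ≤ 1) ∧
      (∀ l : List ℕ, 1 ≤ ‖b l‖) ∧
      (∀ l : List ℕ, l.length < n → ∀ φ : X →L[ℝ] ℝ,
        Filter.Tendsto (fun k => φ (b (l ++ [k]))) Filter.atTop (nhds 0))) :
    ¬ ∃ M : Seminorm ℝ X, IsEquivNorm M ∧ IsAUC M := by
  rintro ⟨M, ⟨c, C, hc, hC, hcC⟩, hAUC⟩
  have ht₀ : 0 < c / (2 * C) := by positivity
  obtain ⟨δ, hδ, hA⟩ := hAUC _ ht₀
  obtain ⟨n, hn⟩ := pow_unbounded_of_one_lt (C / c) (by linarith : (1 : ℝ) < 1 + δ / 2)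
  obtain ⟨b, hb1, hb2, hb3⟩ := h n
  have hlow : ∀ x : X, c * ‖x‖ ≤ M x := fun x => (hcC x).1
  have hup : ∀ x : X, M x ≤ C * ‖x‖ := fun x => (hcC x).2
  have key : ∀ j : ℕ, j ≤ n → ∃ l : List ℕ, l.length = j ∧
      c * (1 + δ / 2) ^ j ≤ M (∑ i ∈ Finset.range (l.length + 1), b (l.take i)) := by
    intro j
    induction j with
    | zero =>
      intro _
      refine ⟨[], rfl, ?_⟩
      simp only [List.length_nil, zero_add, Finset.range_one, Finset.sum_singleton,
        List.take_nil, pow_zero, mul_one]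
      calc c ≤ c * ‖b []‖ := by nlinarith [hb2 []]
        _ ≤ M (b []) := hlow _
    | succ j ih =>
      intro hj
      obtain ⟨l, hl, hMl⟩ := ih (by omega)
      obtain ⟨s, hs⟩ : ∃ s : X, s = ∑ i ∈ Finset.range (l.length + 1), b (l.take i) :=
        ⟨_, rfl⟩
      rw [← hs] at hMl
      have hpow : (1 : ℝ) ≤ (1 + δ / 2) ^ j := one_le_pow₀ (by linarith)
      have hs_low : c ≤ M s := by nlinarith
      have hs_pos : 0 < M s := lt_of_lt_of_le hc hs_low
      have hs_up : M s ≤ C := by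
        calc M s ≤ C * ‖s‖ := hup s
          _ ≤ C * 1 := by
            gcongr
            rw [hs]
            exact hb1 l (by omega)
          _ = C := mul_one C
      obtain ⟨F, hF, hFz⟩ := auc_homogeneous M ht₀ hδ hA s hs_pos
      obtain ⟨η, hη, hη1, hη2⟩ : ∃ η : ℝ, 0 < η ∧ C * η ≤ c / 2 ∧ C * η ≤ δ * c / 2 := by
        refine ⟨min (c / (2 * C)) (δ * c / (2 * C)), by positivity, ?_, ?_⟩
        · calc C * min (c / (2 * C)) (δ * c / (2 * C)) ≤ C * (c / (2 * C)) := by
                gcongr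
                exact min_le_left _ _
            _ = c / 2 := by field_simp
        · calc C * min (c / (2 * C)) (δ * c / (2 * C)) ≤ C * (δ * c / (2 * C)) := by
                gcongr
                exact min_le_right _ _
            _ = δ * c / 2 := by field_simp
      obtain ⟨K, hK⟩ := exists_near_mem_of_weakly_null hF (fun k => b (l ++ [k]))
        (hb3 l (by omega)) hη
      obtain ⟨z, hzF, hz⟩ := hK K le_rfl
      have hd : M (b (l ++ [K]) - z) ≤ C * η := by
        calc M (b (l ++ [K]) - z) ≤ C * ‖b (l ++ [K]) - z‖ := hup _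
          _ ≤ C * η := by gcongr
      have hMz : c - C * η ≤ M z := by
        have h1 : M (b (l ++ [K])) ≤ M z + M (b (l ++ [K]) - z) := by
          have e1 : b (l ++ [K]) = z + (b (l ++ [K]) - z) := by abel
          calc M (b (l ++ [K])) = M (z + (b (l ++ [K]) - z)) := by rw [← e1]
            _ ≤ M z + M (b (l ++ [K]) - z) := map_add_le_add M _ _
        have h2 : c ≤ M (b (l ++ [K])) := by
          calc c ≤ c * ‖b (l ++ [K])‖ := by nlinarith [hb2 (l ++ [K])]
            _ ≤ M (b (l ++ [K])) := hlow _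
        linarith
      have hcond : c / (2 * C) * M s ≤ M z := by
        have h1 : c / (2 * C) * M s ≤ c / (2 * C) * C := by gcongr
        have e1 : c / (2 * C) * C = c / 2 := by field_simp
        linarith
      have hgrow := hFz z hzF hcond
      refine ⟨l ++ [K], by simp [hl], ?_⟩
      rw [bsum_snoc, ← hs]
      have h3 : M (s + z) ≤ M (s + b (l ++ [K])) + M (b (l ++ [K]) - z) := by
        have e1 : s + z = (s + b (l ++ [K])) - (b (l ++ [K]) - z) := by abel
        rw [e1]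
        exact map_sub_le_add M _ _
      have h4 : (1 + δ / 2) * (c * (1 + δ / 2) ^ j) ≤ (1 + δ / 2) * M s := by gcongr
      have h5 : δ / 2 * c ≤ δ / 2 * M s := by gcongr
      have e2 : c * (1 + δ / 2) ^ (j + 1) = (1 + δ / 2) * (c * (1 + δ / 2) ^ j) := by ring
      rw [e2]
      linarith
  obtain ⟨l, hl, hMl⟩ := key n le_rfl
  have h1 : M (∑ i ∈ Finset.range (l.length + 1), b (l.take i)) ≤ C := by
    calc M (∑ i ∈ Finset.range (l.length + 1), b (l.take i))
        ≤ C * ‖∑ i ∈ Finset.range (l.length + 1), b (l.take i)‖ := hup _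
      _ ≤ C * 1 := by
        gcongr
        exact hb1 l (by omega)
      _ = C := mul_one C
  have h2 : C < c * (1 + δ / 2) ^ n := by
    rw [div_lt_iff₀ hc] at hn
    linarith
  linarith

end Vale.Agent.Lib.P069
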