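import Vale.Agent.Lib.P069.JTCoord
import Vale.Agent.Lib.P069.TreeCriterion

namespace Vale.Agent.Lib.P069

open Finset

/-- The nodes `n :: l.take i`, `i ≤ l.length`, form a segment when `l.length ≤ n`. -/
theorem isSeg_branch (n : ℕ) (l : List ℕ) (hl : l.length ≤ n) :
    IsSeg ((range (l.length + 1)).image (fun i => n :: l.take i)) := by
  refine ⟨?_, ?_, ?_⟩
  · intro s hs t ht
    rw [mem_image] at hs ht
    obtain ⟨i, -, rfl⟩ := hs
    obtain ⟨j, -, rfl⟩ := ht
    exact List.prefix_or_prefix_of_prefix
      ((List.prefix_cons_inj n).mpr (List.take_prefix i l))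
      ((List.prefix_cons_inj n).mpr (List.take_prefix j l))
  · intro s hs t ht r hsr hrt
    rw [mem_image] at hs ht ⊢
    obtain ⟨i, hi, rfl⟩ := hs
    obtain ⟨j, hj, rfl⟩ := ht
    rw [mem_range] at hi hj
    cases r with
    | nil =>
      have h1 := hsr.length_le
      simp only [List.length_cons, List.length_nil] at h1
      omega
    | cons a r' =>
      rw [List.cons_prefix_cons] at hsr hrt
      obtain ⟨rfl, -⟩ := hsr
      have h1 : r' <+: l := hrt.2.trans (List.take_prefix j l)
      have h2 : r'.length ≤ j := by
        have h3 := hrt.2.length_le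
        rw [List.length_take] at h3
        omega
      refine ⟨r'.length, mem_range.mpr (by omega), ?_⟩
      rw [← List.prefix_iff_eq_take.mp h1]
  · intro t ht
    rw [mem_image] at ht
    obtain ⟨i, -, rfl⟩ := ht
    calc ((range (l.length + 1)).image (fun i => n :: l.take i)).card
        ≤ (range (l.length + 1)).card := Finset.card_image_le
      _ = l.length + 1 := card_range _
      _ ≤ n + 1 := by omega
      _ = (n :: l.take i).headD 0 + 1 := by rw [List.headD_cons]

/-- The dual space has no equivalent asymptotically uniformly convex norm. -/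
theorem not_auc_dual : ¬ ∃ M : Seminorm ℝ (JT →L[ℝ] ℝ), IsEquivNorm M ∧ IsAUC M := by
  apply not_auc_of_trees
  intro n
  refine ⟨fun l => JT.coord (n :: l), ?_, ?_, ?_⟩
  · intro l hl
    have hsum : ∑ i ∈ range (l.length + 1), JT.coord (n :: l.take i)
        = ∑ t ∈ (range (l.length + 1)).image (fun i => n :: l.take i), JT.coord t := by
      rw [Finset.sum_image]
      intro i hi j hj hij
      rw [Finset.mem_coe, mem_range] at hi hj
      have h1 : (n :: l.take i).length = (n :: l.take j).length := congrArg List.length hij
      simp only [List.length_cons, List.length_take] at h1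
      omega
    rw [hsum]
    exact JT.norm_sum_coord_le (isSeg_branch n l hl)
  · intro l
    exact JT.one_le_norm_coord _
  · intro l hl φ
    apply JT.tendsto_apply_coord φ (fun k => n :: (l ++ [k]))
    intro k1 k2 h
    have h1 : l ++ [k1] = l ++ [k2] := (List.cons_injective h)
    have h2 : [k1] = [k2] := List.append_cancel_left h1
    exact List.singleton_injective h2

end Vale.Agent.Lib.P069
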